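import Mathlib
import Crest.Prelude.Def_BernoulliConv

set_option autoImplicit false
open Crest.AnalysisR Polynomial

namespace Crest.Agent.R104

lemma int_of_rec (x : ℕ → ℝ) (a b : ℤ)
    (h0 : ∃ m : ℤ, x 0 = m) (h1 : ∃ m : ℤ, x 1 = m) (h2 : ∃ m : ℤ, x 2 = m)
    (h3 : ∃ m : ℤ, x 3 = m)
    (hrec : ∀ j, x (j + 4) = a * x (j + 3) - b * x (j + 2) + a * x (j + 1) - x j) :
    ∀ j, ∃ m : ℤ, x j = m := by
  intro j
  induction j using Nat.strong_induction_on with
  | _ j ih =>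
    match j with
    | 0 => exact h0
    | 1 => exact h1
    | 2 => exact h2
    | 3 => exact h3
    | j + 4 =>
      obtain ⟨m0, e0⟩ := ih j (by omega)
      obtain ⟨m1, e1⟩ := ih (j + 1) (by omega)
      obtain ⟨m2, e2⟩ := ih (j + 2) (by omega)
      obtain ⟨m3, e3⟩ := ih (j + 3) (by omega)
      refine ⟨a * m3 - b * m2 + a * m1 - m0, ?_⟩
      rw [hrec, e0, e1, e2, e3]; push_cast; ring

/-- The algebraic input: a conjugate on the unit circle with integral traces. -/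
theorem salem_data {β : ℝ} (hβ : IsQuarticSalem β) :
    IsIntegral ℤ β⁻¹ ∧ ∃ ω : ℂ, ‖ω‖ = 1 ∧
      ∀ j : ℕ, ∃ m : ℤ, β ^ j + β⁻¹ ^ j + 2 * (ω ^ j).re = m := by
  obtain ⟨h1, hint, hdeg, hinv, hroots⟩ := hβ
  have hβ0 : β ≠ 0 := by positivity
  set p := minpoly ℤ β with hp
  have hpq : minpoly ℚ β = p.map (algebraMap ℤ ℚ) :=
    minpoly.isIntegrallyClosed_eq_field_fractions' ℚ hint
  have hmon : p.Monic := minpoly.monic hint
  have hdegp : p.natDegree = 4 := by
    rw [← hdeg, hpq, hmon.natDegree_map]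
  have hform : ∀ {A : Type} [CommRing A] [Algebra ℚ A] (z : A),
      aeval z (minpoly ℚ β) = z ^ 4 + (p.coeff 3 : A) * z ^ 3 + (p.coeff 2 : A) * z ^ 2
        + (p.coeff 1 : A) * z + (p.coeff 0 : A) := by
    intro A _ _ z
    rw [hpq, aeval_map_algebraMap, aeval_eq_sum_range, hdegp]
    have h4 : p.coeff 4 = 1 := by rw [← hdegp]; exact hmon.coeff_natDegree
    simp [Finset.sum_range_succ, h4]
    ring
  set a3 := p.coeff 3
  set a2 := p.coeff 2
  set a1 := p.coeff 1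
  set a0 := p.coeff 0
  have e1 : β ^ 4 + a3 * β ^ 3 + a2 * β ^ 2 + a1 * β + a0 = 0 := by
    rw [← hform β]; exact minpoly.aeval ℚ β
  have e2 : β⁻¹ ^ 4 + a3 * β⁻¹ ^ 3 + a2 * β⁻¹ ^ 2 + a1 * β⁻¹ + a0 = 0 := by
    rw [← hform β⁻¹]; exact hinv
  have hintinv : IsIntegral ℤ β⁻¹ := by
    refine ⟨p, hmon, ?_⟩
    have : aeval β⁻¹ p = 0 := by
      rw [← aeval_map_algebraMap ℚ, ← hpq]; exact hinv
    simpa [aeval_def] using this
  refine ⟨hintinv, ?_⟩
  have hli : ∀ c0 c1 c2 c3 : ℚ, (c0 : ℝ) + c1 * β + c2 * β ^ 2 + c3 * β ^ 3 = 0 →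
      c0 = 0 ∧ c1 = 0 ∧ c2 = 0 ∧ c3 = 0 := by
    intro c0 c1 c2 c3 h
    have hl := linearIndependent_pow (K := ℚ) β
    rw [hdeg, Fintype.linearIndependent_iff] at hl
    have := hl ![c0, c1, c2, c3] (by
      simp [Fin.sum_univ_four, Rat.smul_def]
      linarith)
    exact ⟨this 0, this 1, this 2, this 3⟩
  have e3 : 1 + a3 * β + a2 * β ^ 2 + a1 * β ^ 3 + a0 * β ^ 4 = 0 := by
    have : β ^ 4 * (β⁻¹ ^ 4 + a3 * β⁻¹ ^ 3 + a2 * β⁻¹ ^ 2 + a1 * β⁻¹ + a0) = 0 := by
      rw [e2, mul_zero]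
    rw [← this]; field_simp
  obtain ⟨r0, r1, r2, r3⟩ := hli ((1 - a0 * a0 : ℤ) : ℚ) ((a3 - a0 * a1 : ℤ) : ℚ)
    ((a2 - a0 * a2 : ℤ) : ℚ) ((a1 - a0 * a3 : ℤ) : ℚ) (by
      push_cast
      linear_combination e3 - (a0 : ℝ) * e1)
  have r0' : a0 * a0 = 1 := by have := Int.cast_eq_zero.1 r0; omega
  have r1' : a3 = a0 * a1 := by have := Int.cast_eq_zero.1 r1; omega
  have r2' : a2 = a0 * a2 := by have := Int.cast_eq_zero.1 r2; omega
  have r3' : a1 = a0 * a3 := by have := Int.cast_eq_zero.1 r3; omega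
  have ha0 : a0 = 1 := by
    rcases Int.eq_one_or_neg_one_of_mul_eq_one r0' with h | h
    · exact h
    · exfalso
      rw [h] at r1' r2' r3'
      have h2 : a2 = 0 := by omega
      have h1' : a1 = -a3 := by omega
      rw [h, h2, h1'] at e1
      push_cast at e1
      have hf : (β ^ 2 - 1) * (β ^ 2 + a3 * β + 1) = 0 := by linear_combination e1
      have hne : β ^ 2 - 1 ≠ 0 := by nlinarith
      have hq := (mul_eq_zero.1 hf).resolve_left hne
      have := (hli 1 (a3 : ℚ) 1 0 (by push_cast; linarith)).1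
      norm_num at this
  rw [ha0] at r3' e1
  have ha1 : a1 = a3 := by omega
  rw [ha1] at e1
  push_cast at e1
  set t : ℝ := β + β⁻¹ with ht
  have hbb : β * β⁻¹ = 1 := mul_inv_cancel₀ hβ0
  have htq : t ^ 2 + a3 * t + (a2 - 2) = 0 := by
    have : β ^ 2 * (t ^ 2 + a3 * t + (a2 - 2)) = 0 := by
      rw [← e1, ht]; field_simp; ring
    exact (mul_eq_zero.1 this).resolve_left (by positivity)
  set c : ℝ := -a3 - t with hc
  have htc : t * c = a2 - 2 := by rw [hc]; linarith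
  obtain ⟨z, hz⟩ : ∃ z : ℂ, z ^ 2 - (c : ℂ) * z + 1 = 0 := by
    obtain ⟨s, hs⟩ := IsAlgClosed.exists_pow_nat_eq ((c : ℂ) ^ 2 - 4) (n := 2) (by norm_num)
    exact ⟨(c + s) / 2, by linear_combination hs / 4⟩
  have hzp : z ^ 4 + (a3 : ℂ) * z ^ 3 + (a2 : ℂ) * z ^ 2 + (a3 : ℂ) * z + 1 = 0 := by
    have h3 : (a3 : ℂ) = -(t : ℂ) - c := by
      have : (a3 : ℝ) = -t - c := by rw [hc]; ring
      exact_mod_cast this
    have h2 : (a2 : ℂ) = (t : ℂ) * c + 2 := by
      have : (a2 : ℝ) = t * c + 2 := by linarith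
      exact_mod_cast this
    rw [h3, h2]
    linear_combination (z ^ 2 - t * z + 1) * hz
  have hnot : c ≠ t := by
    intro hct
    have h2 : (2 : ℝ) + a3 * β + 2 * β ^ 2 = 0 := by
      have : t = -a3 - t := by rw [← hc]; exact hct.symm
      have h5 : β * (2 * t + a3) = 0 := by
        have : 2 * t + a3 = 0 := by linarith
        rw [this, mul_zero]
      rw [ht] at h5
      linear_combination h5 - 2 * hbb
    have := (hli 2 (a3 : ℚ) 2 0 (by push_cast; linarith)).1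
    norm_num at this
  have hnorm : ‖z‖ = 1 := by
    rcases hroots z (by rw [hform z, ha0, ha1]; simpa using hzp) with h | h | h
    · exfalso; apply hnot
      rw [h] at hz
      have h' : β ^ 2 - c * β + 1 = 0 := by exact_mod_cast hz
      have : β * (c - t) = 0 := by rw [ht]; linear_combination -h' - hbb
      have := (mul_eq_zero.1 this).resolve_left hβ0
      linarith
    · exfalso; apply hnot
      rw [h] at hz
      have h' : β⁻¹ ^ 2 - c * β⁻¹ + 1 = 0 := by exact_mod_cast hz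
      have : β⁻¹ * (c - t) = 0 := by rw [ht]; linear_combination -h' - hbb
      have := (mul_eq_zero.1 this).resolve_left (inv_ne_zero hβ0)
      linarith
    · exact h
  refine ⟨z, hnorm, ?_⟩
  have hz0 : z ≠ 0 := by rintro rfl; simp at hnorm
  have hzc : z * (starRingEnd ℂ) z = 1 := by
    rw [Complex.mul_conj, Complex.normSq_eq_norm_sq, hnorm]; simp
  have hre : 2 * z.re = c := by
    have h1 : z + (starRingEnd ℂ) z = c := by
      have : z * (z + (starRingEnd ℂ) z - c) = 0 := by linear_combination hz + hzc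
      have := (mul_eq_zero.1 this).resolve_left hz0
      linear_combination this
    rw [Complex.add_conj] at h1
    exact_mod_cast h1
  have hz2 : z ^ 2 = (c : ℂ) * z - 1 := by linear_combination hz
  have hz3 : z ^ 3 = ((c ^ 2 - 1 : ℝ) : ℂ) * z - c := by
    push_cast; linear_combination (z + c) * hz
  have hsum : t + c = -a3 := by rw [hc]; ring
  apply int_of_rec (fun j => β ^ j + β⁻¹ ^ j + 2 * (z ^ j).re) (-a3) a2
  · exact ⟨4, by norm_num⟩
  · exact ⟨-a3, by simp only [pow_one]; push_cast; linarith⟩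
  · refine ⟨a3 ^ 2 - 2 * (a2 - 2) - 4, ?_⟩
    have hs : β ^ 2 + β⁻¹ ^ 2 = t ^ 2 - 2 := by rw [ht]; linear_combination (-2) * hbb
    have hr : 2 * (z ^ 2).re = c ^ 2 - 2 := by
      rw [hz2]; simp only [Complex.sub_re, Complex.re_ofReal_mul, Complex.one_re]
      linear_combination c * hre
    simp only [hs, hr]; push_cast
    have : (a3 : ℝ) = -(t + c) := by linarith
    rw [this, ← htc]; ring
  · refine ⟨-a3 ^ 3 + 3 * a3 * (a2 - 2) + 3 * a3, ?_⟩
    have hs : β ^ 3 + β⁻¹ ^ 3 = t ^ 3 - 3 * t := by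
      rw [ht]; linear_combination (-3 * (β + β⁻¹)) * hbb
    have hr : 2 * (z ^ 3).re = c ^ 3 - 3 * c := by
      rw [hz3]; simp only [Complex.sub_re, Complex.re_ofReal_mul, Complex.ofReal_re]
      linear_combination (c ^ 2 - 1) * hre
    simp only [hs, hr]; push_cast
    have : (a3 : ℝ) = -(t + c) := by linarith
    rw [this, ← htc]; ring
  · intro j
    have e2' : β⁻¹ ^ 4 + a3 * β⁻¹ ^ 3 + a2 * β⁻¹ ^ 2 + a3 * β⁻¹ + 1 = 0 := by
      rw [ha0, ha1] at e2; simpa using e2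
    have hzj : z ^ (j + 4) = -((a3 : ℝ) : ℂ) * z ^ (j + 3) - ((a2 : ℝ) : ℂ) * z ^ (j + 2)
        - ((a3 : ℝ) : ℂ) * z ^ (j + 1) - z ^ j := by
      push_cast; linear_combination z ^ j * hzp
    have hzr : (z ^ (j + 4)).re = -(a3 : ℝ) * (z ^ (j + 3)).re - (a2 : ℝ) * (z ^ (j + 2)).re
        - (a3 : ℝ) * (z ^ (j + 1)).re - (z ^ j).re := by
      rw [hzj]
      simp only [Complex.sub_re, neg_mul, Complex.neg_re, Complex.re_ofReal_mul]
    simp only [hzr]; push_cast
    linear_combination β ^ j * e1 + β⁻¹ ^ j * e2'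

end Crest.Agent.R104
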