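import Crest.Agent.R104.Ind
import Crest.Agent.R104.Alg

set_option autoImplicit false
open Finset Real Filter

namespace Crest.Agent.R104

variable {β : ℝ} {ω : ℂ}

lemma st_zero (hω : ‖ω‖ = 1)
    (htr : ∀ j : ℕ, ∃ m : ℤ, β ^ j + β⁻¹ ^ j + 2 * (ω ^ j).re = m) : St β ω 1 0 1 := by
  refine ⟨le_rfl, by simp, 1, 1, Or.inl rfl, by simp, fun j => ?_⟩
  obtain ⟨k, rfl | rfl⟩ := Int.eq_nat_or_neg j
  · obtain ⟨m, hm⟩ := htr k
    exact ⟨m, by simpa using hm⟩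
  · obtain ⟨m, hm⟩ := htr k
    refine ⟨m, ?_⟩
    have : (ω ^ k)⁻¹.re = (ω ^ k).re := by
      rw [Complex.inv_re, Complex.normSq_eq_norm_sq, norm_pow, hω]; simp
    simp only [one_mul, Nat.cast_zero, neg_zero, zero_sub, neg_neg, zpow_natCast, zpow_neg, this]
    rw [inv_pow] at hm
    linarith

lemma cos_ne_zero_of_integral {x : ℝ} (hx : IsIntegral ℤ x) : cos (2 * π * x) ≠ 0 := by
  intro h
  obtain ⟨k, hk⟩ := cos_eq_zero_iff.1 h
  have h1 : x = algebraMap ℚ ℝ ((2 * k + 1) / 4) := by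
    have : π * (4 * x - (2 * k + 1)) = 0 := by linarith
    have := (mul_eq_zero.1 this).resolve_left pi_ne_zero
    simp only [eq_ratCast]; push_cast; linarith
  rw [h1, isIntegral_algebraMap_iff (algebraMap ℚ ℝ).injective] at hx
  obtain ⟨m, hm⟩ := IsIntegrallyClosed.isIntegral_iff.1 hx
  have h2 : (4 * m : ℚ) = 2 * k + 1 := by
    simp only [eq_intCast] at hm; linarith
  have h3 : 4 * m = 2 * k + 1 := by exact_mod_cast h2
  omega

lemma exists_rho (hβ : 1 < β) (hω : ‖ω‖ = 1) (h1 : IsIntegral ℤ β) (h2 : IsIntegral ℤ β⁻¹)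
    {A : ℝ} {L : ℕ} (hA : IsIntegral ℤ A) (hst : St β ω A L (1 / 100)) :
    ∃ ρ, 0 < ρ ∧ Rho β A ρ := by
  have hβ0 : 0 < β := by linarith
  obtain ⟨J, hJ⟩ := pow_unbounded_of_one_lt (50 : ℝ) hβ
  have hJ' : β ^ (-(J : ℤ)) ≤ 1 / 50 := by
    rw [zpow_neg, zpow_natCast, one_div]; exact inv_anti₀ (by norm_num) hJ.le
  have hpos : ∀ j : ℤ, 0 < |cos (2 * π * (A * β ^ j))| := by
    intro j
    refine abs_pos.2 (cos_ne_zero_of_integral (hA.mul ?_))
    obtain ⟨k, rfl | rfl⟩ := Int.eq_nat_or_neg j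
    · rw [zpow_natCast]; exact h1.pow k
    · rw [zpow_neg, zpow_natCast, ← inv_pow]; exact h2.pow k
  have hhalf : ∀ (x : ℝ) (m : ℤ), |x - m| ≤ 1 / 25 → 1 / 2 ≤ |cos (2 * π * x)| := by
    intro x m h
    have a1 := one_sub_cos_le_of_near h
    have a2 : π ^ 2 ≤ 4 ^ 2 := pow_le_pow_left₀ pi_pos.le pi_le_four 2
    linarith [le_abs_self (cos (2 * π * x))]
  obtain ⟨j0, -, hj0⟩ := exists_min_image (Icc (-((L : ℤ) + J)) J)
    (fun j => |cos (2 * π * (A * β ^ j))|) ⟨0, by simp⟩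
  refine ⟨min (1 / 2) |cos (2 * π * (A * β ^ j0))|, lt_min (by norm_num) (hpos j0), fun j => ?_⟩
  by_cases hj : j ∈ Icc (-((L : ℤ) + J)) J
  · exact (min_le_right _ _).trans (hj0 j hj)
  · refine (min_le_left _ _).trans ?_
    rw [mem_Icc, not_and_or] at hj
    rcases hj with hj | hj
    · refine hhalf _ 0 ?_
      have a1 := hst.le_zpow hβ j
      have a2 : β ^ ((L : ℤ) + j) ≤ β ^ (-(J : ℤ)) := zpow_le_zpow_right₀ hβ.le (by omega)
      have := hst.1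
      rw [Int.cast_zero, sub_zero, abs_of_nonneg (by positivity)]
      linarith
    · obtain ⟨m, hm⟩ := hst.near hβ hω j
      refine hhalf _ m ?_
      have a2 : β ^ (-j) ≤ β ^ (-(J : ℤ)) := zpow_le_zpow_right₀ hβ.le (by omega)
      linarith

lemma exists_G (hβ : 1 < β) {A ρ : ℝ} (hρ0 : 0 < ρ) (hρ : Rho β A ρ) : ∃ G, Gb β A G 0 := by
  have hβ0 : 0 < β := by linarith
  refine ⟨2 * π ^ 2 * A ^ 2 / ρ * (β ^ (0 : ℤ) * (1 - β⁻¹)⁻¹), fun s hs => ?_⟩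
  have h1 : ∀ j ∈ s, cst (A * β ^ j) ≤ 2 * π ^ 2 * A ^ 2 / ρ * β ^ j := by
    intro j hj
    refine (cst_quad (m := 0) hρ0 (hρ j) le_rfl).trans ?_
    have a1 : β ^ j ≤ 1 := zpow_le_one_of_nonpos₀ hβ.le (hs j hj)
    have a2 : 0 < β ^ j := by positivity
    have a3 : (β ^ j) ^ 2 ≤ β ^ j := by nlinarith
    rw [Int.cast_zero, sub_zero, sq_abs, mul_pow, div_mul_eq_mul_div, mul_assoc (2 * π ^ 2)]
    gcongr
  refine (sum_le_sum h1).trans ?_
  rw [← mul_sum]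
  gcongr
  exact geo_le hβ s 0 hs

lemma exists_inv (hβ : 1 < β) (hω : ‖ω‖ = 1) (h1 : IsIntegral ℤ β) (h2 : IsIntegral ℤ β⁻¹)
    (htr : ∀ j : ℕ, ∃ m : ℤ, β ^ j + β⁻¹ ^ j + 2 * (ω ^ j).re = m) :
    ∃ ρ κ l : ℝ, 0 < ρ ∧ 0 ≤ κ ∧ 200 ≤ l ∧ 1 ≤ (β - 1) * exp l ∧ Inv β ω ρ κ l := by
  have hβ0 : 0 < β := by linarith
  obtain ⟨M1, hM1⟩ := pow_unbounded_of_one_lt (2 : ℝ) hβ
  have hM1p : 1 ≤ M1 := by
    by_contra h
    have : M1 = 0 := by omega
    rw [this] at hM1; norm_num at hM1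
  have hM1r : (1 : ℝ) ≤ M1 := by exact_mod_cast hM1p
  obtain ⟨n1, hn1, hθ1⟩ := dirichlet hω (M := M1) (N := 1400 * M1) hM1p (by omega)
  have hθ1' : ‖ω ^ n1 - 1‖ ≤ 1 / 100 := by
    rcases hθ1 with h | h
    · refine h.2.trans ?_
      push_cast
      rw [div_le_iff₀ (by positivity)]; linarith
    · refine h.2.trans ?_
      push_cast
      rw [div_le_iff₀ (by positivity)]; linarith
  have hn1' : 2 ≤ β ^ n1 := hM1.le.trans (pow_le_pow_right₀ hβ.le hn1)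
  have hst1 := ((st_zero hω htr).step hβ hω hn1' hθ1').1
  simp only [one_mul, zero_add] at hst1
  obtain ⟨ρ, hρ0, hρ⟩ := exists_rho hβ hω h1 h2 ((h1.pow n1).sub isIntegral_one) hst1
  obtain ⟨M, hM⟩ := pow_unbounded_of_one_lt (80 / ρ) hβ
  have hM' : β ^ (-(M : ℤ)) ≤ ρ / 80 := by
    rw [zpow_neg, zpow_natCast, ← inv_div]; exact inv_anti₀ (by positivity) hM.le
  set M2 := n1 + 2 * M with hM2
  have hM2p : 1 ≤ M2 := by omega
  have hM2r : (1 : ℝ) ≤ M2 := by exact_mod_cast hM2p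
  set l : ℝ := max 200 (max (14 * (M2 : ℝ)) (max (10 / ρ) (1 / (β - 1)))) with hl
  have hl1 : 200 ≤ l := le_max_left _ _
  have hl2 : 14 * (M2 : ℝ) ≤ l := (le_max_left _ _).trans (le_max_right _ _)
  have hl3 : 10 / ρ ≤ l := ((le_max_left _ _).trans (le_max_right _ _)).trans (le_max_right _ _)
  have hl4 : 1 / (β - 1) ≤ l :=
    ((le_max_right _ _).trans (le_max_right _ _)).trans (le_max_right _ _)
  have hle : l ≤ exp l := by linarith [add_one_le_exp l]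
  clear_value l
  have hb : 1 ≤ (β - 1) * exp l := by
    have := (div_le_iff₀ (by linarith)).1 (hl4.trans hle)
    linarith
  have hexp : exp (-l) ≤ ρ / 10 := by
    rw [exp_neg, ← inv_div]; exact inv_anti₀ (by positivity) (hl3.trans hle)
  have hN := ceil_exp_le (a := 6 * l) (by linarith)
  have hN' := Nat.le_ceil (exp (6 * l))
  have hN0 : 0 < ⌈exp (6 * l)⌉₊ := Nat.ceil_pos.2 (exp_pos _)
  set N := ⌈exp (6 * l)⌉₊
  have hNr : (0 : ℝ) < N := by exact_mod_cast hN0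
  have h6 : exp l ≤ exp (6 * l) := exp_le_exp.2 (by linarith)
  obtain ⟨n, hn, hθ⟩ := dirichlet hω (M := M2) (N := N) hM2p hN0
  have hMN : 14 * M2 ≤ N := by
    have : (14 * M2 : ℝ) ≤ N := by linarith
    exact_mod_cast this
  have hnN : n ≤ N := by rcases hθ with h | h <;> omega
  have hθ' : ‖ω ^ n - 1‖ ≤ exp (-(5 * l)) := by
    have a1 : ‖ω ^ n - 1‖ ≤ 14 * M2 / N := by
      rcases hθ with h | h
      · exact h.2.trans (by gcongr; linarith)
      · exact h.2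
    refine a1.trans ?_
    rw [div_le_iff₀ hNr]
    have a2 : exp (-(5 * l)) * exp (6 * l) = exp l := by rw [← exp_add]; congr 1; ring
    have a3 : exp (-(5 * l)) * exp (6 * l) ≤ exp (-(5 * l)) * N := by gcongr
    linarith
  have hθ2 : ‖ω ^ (2 * n) - 1‖ ≤ 2 * exp (-(5 * l)) := by
    have : ω ^ (2 * n) - 1 = (ω ^ n + 1) * (ω ^ n - 1) := by ring
    rw [this, norm_mul]
    have a1 : ‖ω ^ n + 1‖ ≤ 2 := (norm_add_le _ _).trans (by rw [norm_pow, hω]; norm_num)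
    gcongr
  have hn2 : 2 ≤ β ^ n := hM1.le.trans (pow_le_pow_right₀ hβ.le (by omega))
  have hn3 : 2 ≤ β ^ (2 * n) := hM1.le.trans (pow_le_pow_right₀ hβ.le (by omega))
  have hst2 := (hst1.step hβ hω hn2 hθ').1
  have hρ2 := hst1.step_rho hβ hω (M := M) hn2 hθ' (by omega) hρ
  have hst3 := (hst2.step hβ hω hn3 hθ2).1
  have hρ3 := hst2.step_rho hβ hω (M := M) hn3 hθ2 (by omega) hρ2
  have hx : exp (-(5 * l)) ≤ exp (-l) := exp_le_exp.2 (by linarith)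
  have hx1 : exp (-(5 * l)) ≤ 1 := exp_le_one_iff.2 (by linarith)
  have hx0 := exp_pos (-(5 * l))
  have hxx : exp (-(5 * l)) * exp (-(5 * l)) = exp (-(10 * l)) := by
    rw [← exp_add]; congr 1; ring
  have hρ4 : Rho β ((β ^ n1 - 1) * (β ^ n - 1) * (β ^ (2 * n) - 1)) (ρ / 2 + exp (-l)) := by
    refine hρ3.mono ?_
    have hz : 0 < β ^ (-(M : ℤ)) := by positivity
    have a1 : 2 * π * (2 * (1 / 100 * exp (-(5 * l))) + β ^ (-(M : ℤ)))
        ≤ 2 * 4 * (2 * (1 / 100 * (ρ / 10)) + ρ / 80) := by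
      gcongr
      · exact pi_le_four
      · linarith
    have a2 : 2 * π * (2 * (1 / 100 * exp (-(5 * l)) * (2 * exp (-(5 * l)))) + β ^ (-(M : ℤ)))
        ≤ 2 * 4 * (2 * (1 / 100 * (ρ / 10) * (2 * 1)) + ρ / 80) := by
      gcongr
      · exact pi_le_four
      · linarith
    linarith
  obtain ⟨G, hG⟩ := exists_G hβ (by linarith [exp_pos (-l)]) hρ4
  refine ⟨ρ / 2, |G + (2 * D1 β (ρ / 2) + D2 β (ρ / 2))|, l, by linarith, abs_nonneg _, hl1, hb,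
    _, G, _, hst3.mono ?_, ?_, hρ4, hG, ?_⟩
  · nlinarith [exp_pos (-(10 * l))]
  · have a1 : n1 + n + 2 * n ≤ 4 * N := by omega
    have a2 : ((n1 + n + 2 * n : ℕ) : ℝ) ≤ 4 * N := by exact_mod_cast a1
    have a3 := hundred hl1 (a := 6 * l) (b := 7 * l) (by linarith)
    linarith [exp_pos (6 * l)]
  · refine (le_abs_self _).trans ?_
    exact le_mul_of_one_le_right (abs_nonneg _) (by linarith)

theorem key_of_salem (hβ : Crest.AnalysisR.IsQuarticSalem β) (η : ℝ) (hη : 0 < η) : Key β η := by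
  obtain ⟨h2, ω, hω, htr⟩ := salem_data hβ
  obtain ⟨ρ, κ, l, hρ, hκ, hl, hb, hinv⟩ := exists_inv hβ.1 hω hβ.2.1 h2 htr
  obtain ⟨k1, hk1⟩ := exists_pow_lt_of_lt_one (x := 1 / (2 * (κ + 1))) (y := (20 / 21 : ℝ))
    (by positivity) (by norm_num)
  obtain ⟨k2, hk2⟩ := exists_nat_ge (2 / η)
  obtain ⟨l', hl', hinv'⟩ := hinv.iterate hβ.1 hω hρ hκ hl hb (k1 + k2)
  have h0 : l ≤ l' := by linarith [Nat.cast_nonneg (α := ℝ) (k1 + k2)]
  have hb1 : 0 < β - 1 := by linarith [hβ.1]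
  refine hinv'.key hβ.1 hω hρ ?_ (by linarith) (hb.trans (by gcongr)) ?_
  · have a1 : (20 / 21 : ℝ) ^ (k1 + k2) ≤ (20 / 21) ^ k1 :=
      pow_le_pow_of_le_one (by norm_num) (by norm_num) (by omega)
    have a2 : (20 / 21 : ℝ) ^ (k1 + k2) * κ ≤ 1 / (2 * (κ + 1)) * κ := by gcongr; linarith
    refine a2.trans ?_
    rw [div_mul_eq_mul_div, div_le_div_iff₀ (by positivity) (by norm_num)]
    linarith
  · have a1 : η⁻¹ ≤ exp (l' / 2) := by
      have : (k2 : ℝ) ≤ l' := by push_cast at hl'; linarith [Nat.cast_nonneg (α := ℝ) k1]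
      have a2 : η⁻¹ = 2 / η / 2 := by field_simp
      linarith [add_one_le_exp (l' / 2)]
    rw [exp_neg]
    exact inv_le_of_inv_le₀ hη a1

end Crest.Agent.R104
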