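import Crest.Agent.R104.Prob2

set_option autoImplicit false
open Crest.AnalysisR MeasureTheory ProbabilityTheory Finset Real Filter
open scoped ENNReal

namespace Crest.Agent.R104

/-- The arithmetic input for the lacunary test sums. -/
def Key (β η : ℝ) : Prop :=
  ∃ (A e y : ℝ) (K N : ℕ), 1 ≤ A ∧ 0 < N ∧
    y = ∏ i ∈ range (2 * K + 1), cos (2 * π * (A * β ^ K * β⁻¹ ^ i)) ∧ y ≠ 0 ∧
    (∀ j : ℕ, K < j → ∃ m : ℤ, |A * β ^ j - m| ≤ e) ∧ N * e ^ 2 ≤ η * y ^ 2 ∧
    (2 * K + 1 : ℝ) ≤ η * y ^ 2 * N ∧ A * β⁻¹ ^ K ≤ η * y ^ 2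

lemma sep_pow {β : ℝ} (hβ : 1 < β) {u v : ℕ} (h : u ≠ v) : β - 1 ≤ |β ^ u - β ^ v| := by
  wlog huv : v < u generalizing u v
  · rw [abs_sub_comm]; exact this h.symm (by omega)
  have h1 : β ^ (v + 1) ≤ β ^ u := pow_le_pow_right₀ hβ.le huv
  have h2 : 1 ≤ β ^ v := one_le_pow₀ hβ.le
  refine le_trans ?_ (le_abs_self _)
  rw [pow_succ] at h1
  nlinarith

theorem sing_of_key {β : ℝ} (hβ : 1 < β) (hkey : ∀ η, 0 < η → Key β η) :
    (bernoulliConvolution β⁻¹).MutuallySingular (volume : Measure ℝ) := by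
  have hβ0 : 0 < β := by linarith
  set r := β⁻¹ with hr
  have h0 : 0 < r := inv_pos.2 hβ0
  have h1 : r < 1 := inv_lt_one_of_one_lt₀ hβ
  have hβr : β * r = 1 := mul_inv_cancel₀ hβ0.ne'
  set R := (1 - r)⁻¹ with hR
  have hR0 : 0 < R := inv_pos.2 (by linarith)
  have hX := measurable_signedPowerSum h0.le h1
  refine sing_of_approx _ _ fun δ hδ => ?_
  set C1 := 4 * (4 * (2 * π * R) ^ 2 + 16 * π ^ 2 + 4) with hC1
  set C2 := 4 * (2 * R + 1 / (π * (β - 1))) with hC2
  have hb1 : 0 < β - 1 := by linarith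
  have hC1p : 0 < C1 := by positivity
  have hC2p : 0 < C2 := by positivity
  set η := min 1 (δ / (C1 + C2)) with hη
  have hη0 : 0 < η := lt_min one_pos (by positivity)
  have hη1 : η ≤ 1 := min_le_left _ _
  have hη2 : η * (C1 + C2) ≤ δ := (le_div_iff₀ (by positivity)).1 (min_le_right _ _)
  obtain ⟨A, e, y, K, N, hA, hN, hy, hy0, hnear, hNe, hK, hAr⟩ := hkey η hη0
  rw [← hr] at hy hAr
  have hNr : (0 : ℝ) < N := by exact_mod_cast hN
  have hy2 : 0 < y ^ 2 := by positivity
  have hy1 : y ^ 2 ≤ 1 := by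
    rw [sq_le_one_iff_abs_le_one, hy, Finset.abs_prod]
    exact Finset.prod_le_one (fun _ _ => abs_nonneg _) (fun k _ => abs_cos_le_one _)
  set t : ℕ → ℝ := fun u => 2 * π * (A * β ^ (K + u)) with ht
  set S : ℝ → ℝ := fun x => (N : ℝ)⁻¹ * ∑ u ∈ range N, cos (t u * x) with hS
  have hSc : Continuous S := by simp only [hS]; fun_prop
  have hpow : ∀ u : ℕ, β ^ u * r ^ u = 1 := fun u => by rw [← mul_pow, hβr, one_pow]
  -- the random side
  have hnu := nu_side h0.le h1 t (fun i => 2 * π * (A * β ^ K * r ^ i)) N (2 * K + 1) hN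
    (2 * π ^ 2 * e ^ 2) (2 * π * R * (η * y ^ 2)) (by positivity)
    (by
      intro u i
      simp only [ht, pow_add]
      linear_combination (2 * π * A * β ^ K * r ^ i) * hpow u)
    (by
      intro u k hk
      obtain ⟨m, hm⟩ := hnear (K + (u - k)) (by omega)
      have : t u * r ^ k = 2 * π * (A * β ^ (K + (u - k))) := by
        have : K + u = K + (u - k) + k := by omega
        simp only [ht]
        rw [this, pow_add β (K + (u - k)) k]
        linear_combination (2 * π * A * β ^ (K + (u - k))) * hpow k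
      rw [this]
      exact one_sub_cos_le_of_near hm)
    (by
      intro u
      have e1 : |t u| * (r ^ (u + (2 * K + 1)) * (1 - r)⁻¹) = 2 * π * R * (A * r ^ K * r) := by
        rw [abs_of_pos (by simp only [ht]; positivity)]
        simp only [ht, pow_add, pow_mul', ← hR]
        linear_combination (2 * π * A * R * r * β ^ K * r ^ K * r ^ K) * hpow u
          + (2 * π * A * R * r * r ^ K) * hpow K
      rw [e1]
      have : A * r ^ K * r ≤ A * r ^ K := mul_le_of_le_one_right (by positivity) h1.le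
      exact mul_le_mul_of_nonneg_left (this.trans hAr) (by positivity))
  rw [← hy] at hnu
  have hnu2 : ∫ ε, (S (signedPowerSum r ε) - y) ^ 2 ∂coins ≤ y ^ 2 / 4 * (η * C1) := by
    refine hnu.trans ?_
    have a1 : (η * y ^ 2) ^ 2 ≤ η * y ^ 2 := by
      have : η * y ^ 2 ≤ 1 := mul_le_one₀ hη1 hy2.le hy1
      nlinarith [mul_pos hη0 hy2]
    have a2 : 4 * ((2 * K + 1 : ℕ) : ℝ) / N ≤ 4 * (η * y ^ 2) := by
      rw [div_le_iff₀ hNr]; push_cast; linarith
    have a3 : (2 * π * R * (η * y ^ 2)) ^ 2 ≤ (2 * π * R) ^ 2 * (η * y ^ 2) := by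
      rw [mul_pow]; exact mul_le_mul_of_nonneg_left a1 (by positivity)
    have a4 : (N : ℝ) * (2 * π ^ 2 * e ^ 2) ≤ 2 * π ^ 2 * (η * y ^ 2) := by
      have : (N : ℝ) * (2 * π ^ 2 * e ^ 2) = 2 * π ^ 2 * (N * e ^ 2) := by ring
      rw [this]; exact mul_le_mul_of_nonneg_left hNe (by positivity)
    have a5 : y ^ 2 / 4 * (η * C1) = 4 * ((2 * π * R) ^ 2 * (η * y ^ 2))
        + 8 * (2 * π ^ 2 * (η * y ^ 2)) + 4 * (η * y ^ 2) := by rw [hC1]; ring
    linarith
  -- the Lebesgue side
  have hAK : 0 < A * β ^ K := by positivity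
  have hleb := leb_side t N hN hR0.le (d := 2 * π * (A * β ^ K) * (β - 1)) (by positivity)
    (by
      intro u v huv
      have : t u - t v = 2 * π * (A * β ^ K) * (β ^ u - β ^ v) := by
        simp only [ht, pow_add]; ring
      rw [this, abs_mul, abs_of_pos (by positivity : 0 < 2 * π * (A * β ^ K))]
      gcongr
      exact sep_pow hβ huv)
    (by
      intro u v huv
      have : t u + t v = 2 * π * (A * β ^ K) * (β ^ u + β ^ v) := by
        simp only [ht, pow_add]; ring
      rw [this, abs_mul, abs_of_pos (by positivity : 0 < 2 * π * (A * β ^ K))]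
      gcongr
      refine (sep_pow hβ huv).trans ((abs_sub _ _).trans ?_)
      rw [abs_of_pos (by positivity : 0 < β ^ u), abs_of_pos (by positivity : 0 < β ^ v),
        abs_of_pos (by positivity)])
  have hleb2 : ∫ x in -R..R, S x ^ 2 ≤ y ^ 2 / 4 * (η * C2) := by
    refine hleb.trans ?_
    have a1 : 2 * R / N ≤ 2 * R * (η * y ^ 2) := by
      rw [div_le_iff₀ hNr]
      have : (1 : ℝ) ≤ η * y ^ 2 * N := by
        have : (0 : ℝ) ≤ K := Nat.cast_nonneg K
        linarith
      have := mul_le_mul_of_nonneg_left this (by positivity : 0 ≤ 2 * R)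
      linarith
    have a2 : 2 / (2 * π * (A * β ^ K) * (β - 1)) ≤ 1 / (π * (β - 1)) * (η * y ^ 2) := by
      have b1 : (A * β ^ K)⁻¹ ≤ A * r ^ K := by
        rw [mul_inv, ← inv_pow, ← hr]
        exact mul_le_mul_of_nonneg_right ((inv_le_one_of_one_le₀ hA).trans hA) (by positivity)
      calc _ = 1 / (π * (β - 1)) * (A * β ^ K)⁻¹ := by field_simp
        _ ≤ _ := mul_le_mul_of_nonneg_left (b1.trans hAr) (by positivity)
    have a5 : y ^ 2 / 4 * (η * C2) = 2 * R * (η * y ^ 2) + 1 / (π * (β - 1)) * (η * y ^ 2) := by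
      rw [hC2]; ring
    linarith
  have hE : MeasurableSet (Set.Icc (-R) R ∩ {x | (S x - y) ^ 2 < y ^ 2 / 4}) :=
    measurableSet_Icc.inter (measurableSet_lt (by fun_prop) measurable_const)
  refine ⟨_, hE, ?_, ?_⟩
  · rw [bernoulliConvolution, Measure.map_apply hX hE.compl]
    have hsub : signedPowerSum r ⁻¹' (Set.Icc (-R) R ∩ {x | (S x - y) ^ 2 < y ^ 2 / 4})ᶜ
        ⊆ {ε | y ^ 2 / 4 ≤ (S (signedPowerSum r ε) - y) ^ 2} := by
      intro ε hε
      by_contra hc
      apply hε
      have hc' : (S (signedPowerSum r ε) - y) ^ 2 < y ^ 2 / 4 := not_le.1 hc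
      refine ⟨?_, hc'⟩
      have := tail_le h0.le h1 ε 0
      simp only [range_zero, sum_empty, sub_zero, pow_zero, one_mul] at this
      exact abs_le.1 this
    refine (measure_mono hsub).trans ?_
    have hint : Integrable (fun ε => (S (signedPowerSum r ε) - y) ^ 2) coins := by
      refine integrable_of_bdd (((hSc.measurable.comp hX).sub_const y).pow_const 2)
        ((1 + |y|) ^ 2) fun ε => ?_
      rw [abs_pow]
      gcongr
      refine (abs_sub _ _).trans ?_
      gcongr
      simp only [hS]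
      rw [abs_mul, abs_of_pos (inv_pos.2 hNr), inv_mul_le_iff₀ hNr]
      refine (abs_sum_le_sum_abs _ _).trans ?_
      calc _ ≤ ∑ u ∈ range N, (1 : ℝ) := sum_le_sum fun u _ => abs_cos_le_one _
        _ = _ := by simp
    have hm := mul_meas_ge_le_integral_of_nonneg (ae_of_all _ fun ε => sq_nonneg _) hint
      (y ^ 2 / 4)
    have h3 := le_of_mul_le_mul_left (hm.trans hnu2) (by positivity)
    rw [← ofReal_measureReal (measure_ne_top _ _)]
    refine ENNReal.ofReal_le_ofReal (h3.trans ?_)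
    linarith [mul_pos hη0 hC1p, mul_pos hη0 hC2p]
  · have hint : Integrable (fun x => S x ^ 2) (volume.restrict (Set.Icc (-R) R)) :=
      (hSc.pow 2).integrableOn_Icc
    have hm := mul_meas_ge_le_integral_of_nonneg (ae_of_all _ fun x => sq_nonneg _) hint
      (y ^ 2 / 4)
    rw [integral_Icc_eq_integral_Ioc, ← intervalIntegral.integral_of_le (by linarith)] at hm
    have h3 := le_of_mul_le_mul_left (hm.trans hleb2) (by positivity)
    have hsub : Set.Icc (-R) R ∩ {x | (S x - y) ^ 2 < y ^ 2 / 4}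
        ⊆ {x | y ^ 2 / 4 ≤ S x ^ 2} ∩ Set.Icc (-R) R := by
      rintro x ⟨hx1, hx2⟩
      refine ⟨?_, hx1⟩
      simp only [Set.mem_ofPred_eq] at hx2 ⊢
      by_contra hc
      nlinarith [sq_nonneg (2 * S x - y)]
    refine (measure_mono hsub).trans ?_
    rw [← Measure.restrict_apply' measurableSet_Icc, ← ofReal_measureReal (measure_ne_top _ _)]
    refine ENNReal.ofReal_le_ofReal (h3.trans ?_)
    linarith [mul_pos hη0 hC1p, mul_pos hη0 hC2p]

end Crest.Agent.R104
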