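import Crest.Agent.R104.Step
import Crest.Agent.R104.Sing

set_option autoImplicit false
open Finset Real Filter

namespace Crest.Agent.R104

variable {β : ℝ} {ω : ℂ}

lemma dirichlet (hω : ‖ω‖ = 1) {M N : ℕ} (hM : 1 ≤ M) (hN : 0 < N) :
    ∃ n : ℕ, M ≤ n ∧ ((n ≤ N ∧ ‖ω ^ n - 1‖ ≤ 7 / N) ∨ (n ≤ 2 * M ∧ ‖ω ^ n - 1‖ ≤ 14 * M / N)) := by
  have hNr : (0 : ℝ) < N := by exact_mod_cast hN
  set ξ := Complex.arg ω / (2 * π) with hξ
  have hωe : ω = Complex.exp (Complex.arg ω * Complex.I) := by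
    conv_lhs => rw [← Complex.norm_mul_exp_arg_mul_I ω, hω]
    simp
  have key : ∀ (k : ℕ) (m : ℤ), ‖ω ^ k - 1‖ ≤ 7 * |k * ξ - m| := by
    intro k m
    have : ω ^ k = Complex.exp (Complex.I * ((2 * π * (k * ξ - m) : ℝ) : ℂ)) := by
      have e1 : Complex.I * ((2 * π * (k * ξ - m) : ℝ) : ℂ)
          = k * (Complex.arg ω * Complex.I) + (-m : ℤ) * (2 * π * Complex.I) := by
        have hπ : (π : ℂ) ≠ 0 := by exact_mod_cast pi_ne_zero
        rw [hξ]; push_cast; field_simp; ring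
      rw [e1, Complex.exp_add, Complex.exp_int_mul_two_pi_mul_I, Complex.exp_nat_mul, ← hωe,
        mul_one]
    rw [this]
    refine Real.norm_exp_I_mul_ofReal_sub_one_le.trans ?_
    rw [Real.norm_eq_abs, abs_mul, abs_of_pos (by positivity : 0 < 2 * π)]
    gcongr
    linarith [pi_lt_d2]
  obtain ⟨k, hk0, hkN, hk⟩ := Real.exists_nat_abs_mul_sub_round_le ξ hN
  have hk' : |k * ξ - round (k * ξ)| ≤ 1 / N := hk.trans (by gcongr; linarith)
  by_cases hkM : M ≤ k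
  · refine ⟨k, hkM, Or.inl ⟨hkN, (key k (round (k * ξ))).trans ?_⟩⟩
    calc _ ≤ 7 * (1 / (N : ℝ)) := by gcongr
      _ = _ := by ring
  · set c := M / k + 1 with hc
    have h1 : M < c * k := by
      rw [hc, mul_comm]; exact Nat.lt_mul_div_succ M hk0
    have h2 : M / k * k ≤ M := Nat.div_mul_le_self M k
    have h3 : M / k ≤ M := Nat.div_le_self M k
    refine ⟨c * k, h1.le, Or.inr ⟨?_, (key (c * k) (c * round (k * ξ))).trans ?_⟩⟩
    · rw [hc, add_mul]; omega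
    · have e : ((c * k : ℕ) : ℝ) * ξ - ((c * round (k * ξ) : ℤ) : ℝ)
          = c * (k * ξ - round (k * ξ)) := by push_cast; ring
      have h4 : (c : ℝ) ≤ 2 * M := by
        have : c ≤ 2 * M := by omega
        exact_mod_cast this
      rw [e, abs_mul, Nat.abs_cast]
      calc _ ≤ 7 * ((2 * M : ℝ) * (1 / N)) := by gcongr
        _ = _ := by ring

lemma hundred {l : ℝ} (hl : 200 ≤ l) {a b : ℝ} (h : a + l / 2 ≤ b) : 100 * exp a ≤ exp b := by
  have h1 := add_one_le_exp (l / 2)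
  calc 100 * exp a ≤ exp (l / 2) * exp a := by gcongr; linarith
    _ = exp (a + l / 2) := by rw [← exp_add, add_comm]
    _ ≤ exp b := exp_le_exp.2 h

lemma ceil_exp_le {a : ℝ} (ha : 0 ≤ a) : (⌈exp a⌉₊ : ℝ) ≤ 2 * exp a := by
  have := Nat.ceil_lt_add_one (exp_pos a).le
  linarith [one_le_exp ha]

lemma pow_ceil_ge (hβ : 1 < β) {l : ℝ} (hb : 1 ≤ (β - 1) * exp l) :
    exp (6 * l) ≤ β ^ ⌈exp (7 * l)⌉₊ := by
  have h1 := one_add_mul_le_pow (a := β - 1) (by linarith) ⌈exp (7 * l)⌉₊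
  have h2 := Nat.le_ceil (exp (7 * l))
  have h3 : exp (7 * l) = exp l * exp (6 * l) := by rw [← exp_add]; congr 1; ring
  have h4 : exp (6 * l) ≤ exp (7 * l) * (β - 1) := by
    rw [h3]; nlinarith [exp_pos (6 * l)]
  have h5 : exp (7 * l) * (β - 1) ≤ ⌈exp (7 * l)⌉₊ * (β - 1) := by gcongr
  rw [add_sub_cancel] at h1
  linarith

lemma zpow_neg_ceil_le (hβ : 1 < β) {l : ℝ} (hb : 1 ≤ (β - 1) * exp l) :
    β ^ (-(⌈exp (7 * l)⌉₊ : ℤ)) ≤ exp (-(6 * l)) := by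
  rw [zpow_neg, zpow_natCast, exp_neg]
  exact inv_anti₀ (exp_pos _) (pow_ceil_ge hβ hb)

lemma Rho.mono {A ρ ρ' : ℝ} (h : Rho β A ρ) (hρ : ρ' ≤ ρ) : Rho β A ρ' :=
  fun j => hρ.trans (h j)

lemma Gb.mono {A G G' : ℝ} {m : ℤ} (h : Gb β A G m) (hG : G ≤ G') : Gb β A G' m :=
  fun s hs => (h s hs).trans hG

/-- first constant -/
noncomputable def D1 (β ρ : ℝ) : ℝ := 2 * π ^ 2 / ρ * (2 * (1 - β⁻¹)⁻¹ + 8)
/-- second constant -/
noncomputable def D2 (β ρ : ℝ) : ℝ := 2 * π / ρ * (2 * (1 - β⁻¹)⁻¹ + 2)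

/-- The induction invariant. -/
def Inv (β : ℝ) (ω : ℂ) (ρ κ l : ℝ) : Prop :=
  ∃ (A G : ℝ) (L : ℕ), St β ω A L (exp (-(10 * l))) ∧ (L : ℝ) ≤ exp (7 * l) ∧
    Rho β A (ρ + exp (-l)) ∧ Gb β A G 0 ∧ G + (2 * D1 β ρ + D2 β ρ) ≤ κ * l

lemma choose_n (hω : ‖ω‖ = 1) {l : ℝ} (hl : 200 ≤ l) {L : ℕ} (hL : (L : ℝ) ≤ exp (7 * l)) :
    ∃ (n : ℕ) (θ l' : ℝ), 21 / 10 * l ≤ l' ∧ 3 * ⌈exp (7 * l)⌉₊ ≤ n ∧ ‖ω ^ n - 1‖ ≤ θ ∧
      exp (-(10 * l)) * θ ≤ exp (-(10 * l')) ∧ ((L + n : ℕ) : ℝ) ≤ exp (7 * l') ∧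
      n * exp (-(10 * l)) ^ 2 ≤ 1 := by
  have hM1 : 1 ≤ ⌈exp (7 * l)⌉₊ := Nat.ceil_pos.2 (exp_pos _)
  have hN0 : 0 < ⌈exp (19 * l)⌉₊ := Nat.ceil_pos.2 (exp_pos _)
  have hM := ceil_exp_le (a := 7 * l) (by linarith)
  have hN := ceil_exp_le (a := 19 * l) (by linarith)
  have hN' := Nat.le_ceil (exp (19 * l))
  have hNi : 1 / (⌈exp (19 * l)⌉₊ : ℝ) ≤ exp (-(19 * l)) := by
    rw [exp_neg, one_div]; exact inv_anti₀ (exp_pos _) hN'
  have hsq : ∀ n : ℕ, (n : ℝ) ≤ 2 * exp (19 * l) → n * exp (-(10 * l)) ^ 2 ≤ 1 := by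
    intro n hn
    have h1 : exp (19 * l) * exp (-(10 * l)) ^ 2 = exp (-l) := by
      rw [sq, ← exp_add, ← exp_add]; congr 1; ring
    have h2 := hundred hl (a := -l) (b := 0) (by linarith)
    rw [exp_zero] at h2
    have h3 : (n : ℝ) * exp (-(10 * l)) ^ 2 ≤ 2 * exp (19 * l) * exp (-(10 * l)) ^ 2 := by gcongr
    nlinarith [exp_pos (-l)]
  obtain ⟨n, hn, h | h⟩ := dirichlet hω (M := 3 * ⌈exp (7 * l)⌉₊) (by omega) hN0
  · have hn' : (n : ℝ) ≤ 2 * exp (19 * l) := le_trans (by exact_mod_cast h.1) hN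
    refine ⟨n, 7 * exp (-(19 * l)), 28 / 10 * l, by linarith, hn, h.2.trans ?_, ?_, ?_, hsq n hn'⟩
    · rw [div_eq_mul_one_div]; gcongr
    · have h1 : exp (-(10 * l)) * exp (-(19 * l)) = exp (-(29 * l)) := by
        rw [← exp_add]; congr 1; ring
      have h2 := hundred hl (a := -(29 * l)) (b := -(10 * (28 / 10 * l))) (by linarith)
      nlinarith [exp_pos (-(29 * l))]
    · have h1 := hundred hl (a := 19 * l) (b := 7 * (28 / 10 * l)) (by linarith)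
      have h2 : exp (7 * l) ≤ exp (19 * l) := exp_le_exp.2 (by linarith)
      push_cast
      linarith [exp_pos (19 * l)]
  · have hn' : (n : ℝ) ≤ 12 * exp (7 * l) := by
      have : (n : ℝ) ≤ 2 * (3 * ⌈exp (7 * l)⌉₊) := by exact_mod_cast h.1
      linarith
    refine ⟨n, 84 * exp (-(12 * l)), 21 / 10 * l, le_rfl, hn, h.2.trans ?_, ?_, ?_, hsq n ?_⟩
    · have h1 : exp (7 * l) * exp (-(19 * l)) = exp (-(12 * l)) := by
        rw [← exp_add]; congr 1; ring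
      rw [div_eq_mul_one_div, ← h1]
      push_cast
      calc _ ≤ 14 * (3 * (2 * exp (7 * l))) * exp (-(19 * l)) := by gcongr
        _ = _ := by ring
    · have h1 : exp (-(10 * l)) * exp (-(12 * l)) = exp (-(22 * l)) := by
        rw [← exp_add]; congr 1; ring
      have h2 := hundred hl (a := -(22 * l)) (b := -(10 * (21 / 10 * l))) (by linarith)
      nlinarith [exp_pos (-(22 * l))]
    · have h1 := hundred hl (a := 7 * l) (b := 7 * (21 / 10 * l)) (by linarith)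
      push_cast
      linarith [exp_pos (7 * l)]
    · have h1 := hundred hl (a := 7 * l) (b := 19 * l) (by linarith)
      linarith [exp_pos (7 * l)]

lemma Inv.step (hβ : 1 < β) (hω : ‖ω‖ = 1) {ρ κ l : ℝ} (hρ : 0 < ρ) (hκ : 0 ≤ κ) (hl : 200 ≤ l)
    (hb : 1 ≤ (β - 1) * exp l) (h : Inv β ω ρ κ l) :
    ∃ l', l + 1 ≤ l' ∧ Inv β ω ρ (20 / 21 * κ) l' := by
  obtain ⟨A, G, L, hst, hL, hR, hG, hκG⟩ := h
  obtain ⟨n, θ, l', hl', hn, hθ, he, hL', hsq⟩ := choose_n hω hl hL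
  set M := ⌈exp (7 * l)⌉₊ with hM
  have hM1 : 1 ≤ M := Nat.ceil_pos.2 (exp_pos _)
  have hLM : L ≤ M := by
    have : (L : ℝ) ≤ M := hL.trans (Nat.le_ceil _)
    exact_mod_cast this
  have hn2 : 2 ≤ β ^ n := by
    have h1 := pow_ceil_ge hβ hb
    have h2 : β ^ M ≤ β ^ n := pow_le_pow_right₀ hβ.le (by omega)
    have h3 := add_one_le_exp (6 * l)
    linarith
  have hc : 0 ≤ (1 - β⁻¹)⁻¹ := inv_nonneg.2 (by linarith [inv_lt_one_of_one_lt₀ hβ])
  have hR' : Rho β (A * (β ^ n - 1)) (ρ + exp (-l')) := by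
    refine (hst.step_rho hβ hω (M := M) hn2 hθ (by omega) hR).mono ?_
    have h1 := zpow_neg_ceil_le hβ hb
    rw [← hM] at h1
    have h2 : exp (-(6 * l)) ≤ exp (-(2 * l)) := exp_le_exp.2 (by linarith)
    have h3 : exp (-(10 * l')) ≤ exp (-(2 * l)) := exp_le_exp.2 (by linarith)
    have h4 : exp (-l') ≤ exp (-(2 * l)) := exp_le_exp.2 (by linarith)
    have h5 := hundred hl (a := -(2 * l)) (b := -l) (by linarith)
    have h6 : 2 * π * (2 * (exp (-(10 * l)) * θ) + β ^ (-(M : ℤ))) ≤ 2 * 4 * (3 * exp (-(2 * l))) := by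
      have : 0 ≤ θ := (norm_nonneg _).trans hθ
      gcongr
      · exact pi_le_four
      · linarith
    linarith [exp_pos (-(2 * l))]
  have hρ1 : Rho β A ρ := hR.mono (by linarith [exp_pos (-l)])
  have hρ2 : Rho β (A * (β ^ n - 1)) ρ := hR'.mono (by linarith [exp_pos (-l')])
  have hG1 : Gb β A (G + D1 β ρ) n := by
    refine (hst.extend hβ hω hρ hρ1 hG n).mono ?_
    unfold D1
    gcongr
    linarith
  have hG2 : Gb β (A * (β ^ n - 1)) (2 * (G + D1 β ρ) + D2 β ρ) 0 := by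
    refine (hst.step_G hβ hω (M := M) hn2 hθ (by omega) hM1 hρ hρ1 hρ2 hG1).mono ?_
    unfold D2
    have h1 : (n : ℝ) ≤ exp (7 * l') := le_trans (by push_cast; linarith [Nat.cast_nonneg (α := ℝ) L]) hL'
    have h2 : (n : ℝ) * (exp (-(10 * l)) * θ) ≤ exp (7 * l') * exp (-(10 * l')) := by
      have : 0 ≤ θ := (norm_nonneg _).trans hθ
      gcongr
    have h3 : exp (7 * l') * exp (-(10 * l')) ≤ 1 := by
      rw [← exp_add]; exact exp_le_one_iff.2 (by linarith)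
    gcongr
    linarith
  refine ⟨l', by linarith, A * (β ^ n - 1), _, L + n, ((hst.step hβ hω hn2 hθ).1).mono he, hL',
    hR', hG2, ?_⟩
  nlinarith

lemma Inv.iterate (hβ : 1 < β) (hω : ‖ω‖ = 1) {ρ κ l : ℝ} (hρ : 0 < ρ) (hκ : 0 ≤ κ)
    (hl : 200 ≤ l) (hb : 1 ≤ (β - 1) * exp l) (h : Inv β ω ρ κ l) (k : ℕ) :
    ∃ l', l + k ≤ l' ∧ Inv β ω ρ ((20 / 21) ^ k * κ) l' := by
  induction k with
  | zero => exact ⟨l, by simp, by simpa using h⟩
  | succ k ih =>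
    obtain ⟨l', h1, h2⟩ := ih
    have h0 : l ≤ l' := by linarith [Nat.cast_nonneg (α := ℝ) k]
    obtain ⟨l'', h3, h4⟩ := h2.step hβ hω hρ (by positivity) (by linarith)
      (hb.trans (by gcongr))
    refine ⟨l'', by push_cast; linarith, ?_⟩
    rw [pow_succ', mul_assoc]; exact h4

lemma Inv.key (hβ : 1 < β) (hω : ‖ω‖ = 1) {ρ κ l η : ℝ} (hρ : 0 < ρ) (hκ : κ ≤ 1 / 2)
    (hl : 200 ≤ l) (hb : 1 ≤ (β - 1) * exp l) (hη : exp (-(l / 2)) ≤ η) (h : Inv β ω ρ κ l) :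
    Key β η := by
  have hβ0 : 0 < β := by linarith
  obtain ⟨A, G, L, hst, hL, hR, hG, hκG⟩ := h
  set M := ⌈exp (7 * l)⌉₊ with hM
  have hM2 : (M : ℝ) ≤ 2 * exp (7 * l) := ceil_exp_le (by linarith)
  have hMz := zpow_neg_ceil_le hβ hb
  rw [← hM] at hMz
  have hc : 0 ≤ (1 - β⁻¹)⁻¹ := inv_nonneg.2 (by linarith [inv_lt_one_of_one_lt₀ hβ])
  have hρ1 : Rho β A ρ := hR.mono (by linarith [exp_pos (-l)])
  set K := L + M with hK
  have hK3 : (K : ℝ) ≤ 3 * exp (7 * l) := by rw [hK]; push_cast; linarith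
  have hG1 : Gb β A (G + D1 β ρ) K := by
    refine (hst.extend hβ hω hρ hρ1 hG K).mono ?_
    unfold D1
    have h1 : exp (7 * l) * exp (-(10 * l)) ^ 2 = exp (-(13 * l)) := by
      rw [sq, ← exp_add, ← exp_add]; congr 1; ring
    have h2 := hundred hl (a := -(13 * l)) (b := 0) (by linarith)
    rw [exp_zero] at h2
    have h3 : (K : ℝ) * exp (-(10 * l)) ^ 2 ≤ 3 * exp (7 * l) * exp (-(10 * l)) ^ 2 := by gcongr
    gcongr
    nlinarith [exp_pos (-(13 * l))]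
  have hD1 : 0 ≤ D1 β ρ := by unfold D1; positivity
  have hD2 : 0 ≤ D2 β ρ := by unfold D2; positivity
  set y := ∏ i ∈ range (2 * K + 1), cos (2 * π * (A * β ^ K * β⁻¹ ^ i)) with hy
  have hfac : ∀ i : ℕ, A * β ^ K * β⁻¹ ^ i = A * β ^ ((K : ℤ) - i) := by
    intro i
    rw [zpow_sub₀ hβ0.ne', zpow_natCast, zpow_natCast, inv_pow, mul_assoc, div_eq_mul_inv]
  have hyabs : exp (-(l / 2)) ≤ |y| := by
    have h1 := hG1 ((range (2 * K + 1)).image fun i : ℕ => (K : ℤ) - i) (by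
      intro j hj
      obtain ⟨i, _, rfl⟩ := mem_image.1 hj
      omega)
    rw [sum_image (fun i _ j _ hij => by simpa using hij)] at h1
    have h2 : |y| = exp (-∑ i ∈ range (2 * K + 1), cst (A * β ^ ((K : ℤ) - i))) := by
      rw [hy, Finset.abs_prod, ← sum_neg_distrib, exp_sum]
      refine prod_congr rfl fun i _ => ?_
      rw [hfac, cst, neg_neg, exp_log (hρ.trans_le (hρ1 _))]
    rw [h2]
    refine exp_le_exp.2 ?_
    nlinarith
  have hy2 : 100 * exp (-(2 * l)) ≤ η * y ^ 2 := by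
    have h1 : exp (-(l / 2)) ^ 2 ≤ y ^ 2 := by
      rw [← sq_abs y]; exact pow_le_pow_left₀ (exp_pos _).le hyabs 2
    have h2 : exp (-(l / 2)) * exp (-(l / 2)) ^ 2 = exp (-(3 / 2 * l)) := by
      rw [sq, ← exp_add, ← exp_add]; congr 1; ring
    have h3 := hundred hl (a := -(2 * l)) (b := -(3 / 2 * l)) (by linarith)
    have h4 : exp (-(l / 2)) * exp (-(l / 2)) ^ 2 ≤ η * y ^ 2 :=
      mul_le_mul hη h1 (by positivity) ((exp_pos _).le.trans hη)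
    linarith
  have hN := ceil_exp_le (a := 9 * l) (by linarith)
  have hN' := Nat.le_ceil (exp (9 * l))
  refine ⟨A, 3 * exp (-(6 * l)), y, K, ⌈exp (9 * l)⌉₊, hst.1, Nat.ceil_pos.2 (exp_pos _), rfl,
    ?_, ?_, ?_, ?_, ?_⟩
  · exact abs_pos.1 ((exp_pos _).trans_le hyabs)
  · intro j hj
    obtain ⟨m, hm⟩ := hst.near hβ hω j
    rw [zpow_natCast] at hm
    refine ⟨m, hm.trans ?_⟩
    have h1 : β ^ (-(j : ℤ)) ≤ β ^ (-(M : ℤ)) := zpow_le_zpow_right₀ hβ.le (by omega)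
    have h2 : exp (-(10 * l)) ≤ exp (-(6 * l)) := exp_le_exp.2 (by linarith)
    linarith
  · have h1 : exp (9 * l) * exp (-(6 * l)) ^ 2 = exp (-(3 * l)) := by
      rw [sq, ← exp_add, ← exp_add]; congr 1; ring
    have h2 : exp (-(3 * l)) ≤ exp (-(2 * l)) := exp_le_exp.2 (by linarith)
    have h3 : (⌈exp (9 * l)⌉₊ : ℝ) * (3 * exp (-(6 * l))) ^ 2
        ≤ 2 * exp (9 * l) * (3 * exp (-(6 * l))) ^ 2 := by gcongr
    nlinarith [exp_pos (-(2 * l))]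
  · have h1 : exp (-(2 * l)) * exp (9 * l) = exp (7 * l) := by
      rw [← exp_add]; congr 1; ring
    have h2 : 100 * exp (-(2 * l)) * exp (9 * l) ≤ η * y ^ 2 * ⌈exp (9 * l)⌉₊ :=
      mul_le_mul hy2 hN' (exp_pos _).le (le_trans (by positivity) hy2)
    have h3 := one_le_exp (x := 7 * l) (by linarith)
    nlinarith
  · have h1 := hst.le_zpow hβ (-(K : ℤ))
    have h2 : (L : ℤ) + -(K : ℤ) = -(M : ℤ) := by rw [hK]; push_cast; ring
    rw [h2, zpow_neg β K, zpow_natCast, ← inv_pow] at h1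
    have h3 : exp (-(6 * l)) ≤ exp (-(2 * l)) := exp_le_exp.2 (by linarith)
    linarith [exp_pos (-(2 * l))]

end Crest.Agent.R104
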