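import Mathlib
import Crest.Prelude.Def_BernoulliConv

set_option autoImplicit false
open Crest.AnalysisR MeasureTheory ProbabilityTheory Finset Real Filter
open scoped ENNReal

namespace Crest.Agent.R104

instance : IsProbabilityMeasure fairCoin := ⟨by
  simp [fairCoin, ENNReal.inv_two_add_inv_two]⟩

/-- The law of the sign sequence. -/
noncomputable abbrev coins : Measure (ℕ → Bool) := Measure.infinitePi (fun _ : ℕ => fairCoin)

/-- The sign attached to a coin. -/
def sg (b : Bool) : ℝ := if b then 1 else -1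

lemma abs_sg (b : Bool) : |sg b| = 1 := by cases b <;> simp [sg]

lemma measurable_sg (k : ℕ) : Measurable fun ε : ℕ → Bool => sg (ε k) :=
  (measurable_of_countable sg).comp (measurable_pi_apply k)

lemma integral_fairCoin (f : Bool → ℂ) : ∫ b, f b ∂fairCoin = (f true + f false) / 2 := by
  unfold fairCoin
  rw [integral_add_measure, integral_smul_measure, integral_smul_measure, integral_dirac,
    integral_dirac]
  · simp; ring
  · exact (Integrable.of_finite).smul_measure (by simp)
  · exact (Integrable.of_finite).smul_measure (by simp)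

lemma measurable_sum_sg (D : ℕ) (a : ℕ → ℝ) :
    Measurable fun ε : ℕ → Bool => ∑ k ∈ range D, a k * sg (ε k) :=
  Finset.measurable_sum _ fun k _ => (measurable_sg k).const_mul _

lemma integrable_of_bdd {f : (ℕ → Bool) → ℝ} (hf : Measurable f) (C : ℝ)
    (hC : ∀ x, |f x| ≤ C) : Integrable f coins :=
  Integrable.of_bound hf.aestronglyMeasurable C (ae_of_all _ hC)

/-- Characteristic function of a finite random sign sum. -/
lemma integral_cos_sum (D : ℕ) (a : ℕ → ℝ) :
    ∫ ε, cos (∑ k ∈ range D, a k * sg (ε k)) ∂coins = ∏ k ∈ range D, cos (a k) := by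
  have hind : iIndepFun (fun (i : Fin D) (ε : ℕ → Bool) => ε i) coins :=
    (iIndepFun_infinitePi (P := fun _ : ℕ => fairCoin) (X := fun _ b => b)
      (fun _ => measurable_id)).precomp (g := fun i : Fin D => (i : ℕ)) Fin.val_injective
  have h := iIndepFun.integral_fun_prod_comp (𝕜 := ℂ) (ι := Fin D)
    (f := fun (i : Fin D) (b : Bool) => Complex.exp (((a i * sg b : ℝ) : ℂ) * Complex.I)) hind
    (fun i => (measurable_pi_apply (i : ℕ)).aemeasurable)
    (fun i => (measurable_of_countable _).aestronglyMeasurable)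
  have h2 : ∀ i : Fin D, ∫ ε : ℕ → Bool, Complex.exp (((a i * sg (ε i) : ℝ) : ℂ) * Complex.I) ∂coins
      = ((cos (a i) : ℝ) : ℂ) := by
    intro i
    have := integral_map (μ := coins) (φ := fun ε : ℕ → Bool => ε i)
      (measurable_pi_apply (i : ℕ)).aemeasurable
      (f := fun b => Complex.exp (((a i * sg b : ℝ) : ℂ) * Complex.I))
      (measurable_of_countable _).aestronglyMeasurable
    rw [← this, Measure.infinitePi_map_eval, integral_fairCoin]
    simp [sg, Complex.cos]
  simp only [h2] at h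
  have h3 : ∀ ε : ℕ → Bool, ∏ i : Fin D, Complex.exp (((a i * sg (ε i) : ℝ) : ℂ) * Complex.I)
      = Complex.exp (((∑ k ∈ range D, a k * sg (ε k) : ℝ) : ℂ) * Complex.I) := by
    intro ε
    rw [← Complex.exp_sum, ← Finset.sum_mul, ← Complex.ofReal_sum,
      Fin.sum_univ_eq_sum_range (fun k => a k * sg (ε k))]
  simp only [h3] at h
  rw [← Complex.ofReal_prod, Fin.prod_univ_eq_prod_range (fun k => cos (a k))] at h
  have hint : Integrable (fun ε : ℕ → Bool =>
      Complex.exp (((∑ k ∈ range D, a k * sg (ε k) : ℝ) : ℂ) * Complex.I)) coins := by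
    refine Integrable.of_bound ?_ 1 (ae_of_all _ fun ε => by
      rw [Complex.norm_exp_ofReal_mul_I])
    exact (Complex.measurable_exp.comp ((Complex.measurable_ofReal.comp
      (measurable_sum_sg D a)).mul_const _)).aestronglyMeasurable
  have h4 := integral_re hint
  simp only [RCLike.re_to_complex, Complex.exp_ofReal_mul_I_re] at h4
  rw [h4, h, Complex.ofReal_re]

lemma one_sub_prod_le (D : ℕ) (x : ℕ → ℝ) (hx : ∀ k, |x k| ≤ 1) :
    1 - ∏ k ∈ range D, x k ≤ ∑ k ∈ range D, (1 - x k) := by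
  induction D with
  | zero => simp
  | succ D ih =>
    rw [prod_range_succ, sum_range_succ]
    have h1 : |∏ k ∈ range D, x k| ≤ 1 := by
      rw [Finset.abs_prod]
      exact Finset.prod_le_one (fun _ _ => abs_nonneg _) (fun k _ => hx k)
    have h2 := (abs_le.1 h1).2
    have h3 := (abs_le.1 (hx D)).2
    nlinarith

lemma one_sub_cos_le_of_near {x e : ℝ} {m : ℤ} (h : |x - m| ≤ e) :
    1 - cos (2 * π * x) ≤ 2 * π ^ 2 * e ^ 2 := by
  have h1 : cos (2 * π * x) = cos (2 * π * (x - m)) := by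
    rw [← cos_sub_int_mul_two_pi (2 * π * x) m]; congr 1; ring
  rw [h1]
  have h2 := one_sub_sq_div_two_le_cos (x := 2 * π * (x - m))
  have h3 : (x - m) ^ 2 ≤ e ^ 2 := by
    rw [← sq_abs (x - m)]; exact pow_le_pow_left₀ (abs_nonneg _) h 2
  have : 0 ≤ π ^ 2 := by positivity
  nlinarith

lemma sq_cos_add_sub_le (B Z : ℝ) : (cos (B + Z) - cos B) ^ 2 ≤ 2 * (1 - cos Z) := by
  have h : (cos (B + Z) - cos B) ^ 2 + (sin (B + Z) - sin B) ^ 2 = 2 * (1 - cos Z) := by
    rw [cos_add, sin_add]
    linear_combination ((cos Z - 1) ^ 2 + sin Z ^ 2) * sin_sq_add_cos_sq B + sin_sq_add_cos_sq Z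
  nlinarith [sq_nonneg (sin (B + Z) - sin B)]

lemma signedPowerSum_eq (r : ℝ) (ε : ℕ → Bool) :
    signedPowerSum r ε = ∑' n, r ^ n * sg (ε n) := by
  unfold signedPowerSum
  congr 1; ext n; cases ε n <;> simp [sg]

lemma summable_sg {r : ℝ} (h0 : 0 ≤ r) (h1 : r < 1) (ε : ℕ → Bool) :
    Summable fun n => r ^ n * sg (ε n) := by
  refine Summable.of_norm_bounded (summable_geometric_of_lt_one h0 h1) fun n => ?_
  rw [Real.norm_eq_abs, abs_mul, abs_sg, mul_one, abs_of_nonneg (by positivity)]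

lemma tail_le {r : ℝ} (h0 : 0 ≤ r) (h1 : r < 1) (ε : ℕ → Bool) (D : ℕ) :
    |signedPowerSum r ε - ∑ k ∈ range D, r ^ k * sg (ε k)| ≤ r ^ D * (1 - r)⁻¹ := by
  rw [signedPowerSum_eq, ← (summable_sg h0 h1 ε).sum_add_tsum_nat_add D, add_sub_cancel_left,
    ← tsum_geometric_of_lt_one h0 h1, ← tsum_mul_left, ← Real.norm_eq_abs]
  refine tsum_of_norm_bounded ((summable_geometric_of_lt_one h0 h1).mul_left _).hasSum fun n => ?_
  rw [Real.norm_eq_abs, abs_mul, abs_sg, mul_one, abs_of_nonneg (by positivity), pow_add, mul_comm]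

lemma measurable_signedPowerSum {r : ℝ} (h0 : 0 ≤ r) (h1 : r < 1) :
    Measurable (signedPowerSum r) := by
  refine measurable_of_tendsto_metrizable (f := fun D ε => ∑ k ∈ range D, r ^ k * sg (ε k))
    (fun D => measurable_sum_sg D _) ?_
  rw [tendsto_pi_nhds]
  intro ε
  rw [signedPowerSum_eq]
  exact (summable_sg h0 h1 ε).hasSum.tendsto_sum_nat

lemma sing_of_approx (ν μ : Measure ℝ)
    (h : ∀ δ : ℝ, 0 < δ → ∃ E : Set ℝ, MeasurableSet E ∧ ν Eᶜ ≤ ENNReal.ofReal δ ∧
      μ E ≤ ENNReal.ofReal δ) : ν.MutuallySingular μ := by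
  choose! E hE using h
  set F : ℕ → Set ℝ := fun k => E ((1 / 2) ^ k) with hF
  have hF' : ∀ k, MeasurableSet (F k) ∧ ν (F k)ᶜ ≤ ENNReal.ofReal ((1 / 2) ^ k) ∧
      μ (F k) ≤ ENNReal.ofReal ((1 / 2) ^ k) := fun k => hE _ (by positivity)
  have hs : ∑' k : ℕ, ENNReal.ofReal ((1 / 2 : ℝ) ^ k) ≠ ∞ := by
    rw [← ENNReal.ofReal_tsum_of_nonneg (fun _ => by positivity) summable_geometric_two]
    exact ENNReal.ofReal_ne_top
  refine ⟨limsup (fun k => (F k)ᶜ) atTop, ?_, ?_, ?_⟩
  · exact MeasurableSet.measurableSet_limsup fun k => (hF' k).1.compl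
  · exact measure_limsup_atTop_eq_zero
      (ne_top_of_le_ne_top hs (ENNReal.tsum_le_tsum fun k => (hF' k).2.1))
  · refine measure_mono_null ?_ (measure_limsup_atTop_eq_zero (s := F)
      (ne_top_of_le_ne_top hs (ENNReal.tsum_le_tsum fun k => (hF' k).2.2)))
    intro x hx
    rw [Set.mem_compl_iff, mem_limsup_iff_frequently_mem, not_frequently] at hx
    rw [mem_limsup_iff_frequently_mem]
    exact (hx.mono fun k hk => by simpa using hk).frequently

end Crest.Agent.R104
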