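import Crest.Agent.R104.Prob

set_option autoImplicit false
open Crest.AnalysisR MeasureTheory ProbabilityTheory Finset Real Filter
open scoped ENNReal

namespace Crest.Agent.R104

/-- random sign sum with coefficients `a` -/
noncomputable def rs (D : ℕ) (a : ℕ → ℝ) (ε : ℕ → Bool) : ℝ := ∑ k ∈ range D, a k * sg (ε k)

lemma measurable_rs (D : ℕ) (a : ℕ → ℝ) : Measurable (rs D a) := measurable_sum_sg D a

lemma integral_cos_rs (D : ℕ) (a : ℕ → ℝ) :
    ∫ ε, cos (rs D a ε) ∂coins = ∏ k ∈ range D, cos (a k) := integral_cos_sum D a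

lemma integrable_cos_rs (D : ℕ) (a : ℕ → ℝ) : Integrable (fun ε => cos (rs D a ε)) coins :=
  integrable_of_bdd (measurable_cos.comp (measurable_rs D a)) 1 fun _ => abs_cos_le_one _

lemma integral_cos_mul_cos (D : ℕ) (a b : ℕ → ℝ) (h : ∀ k, a k = 0 ∨ b k = 0) :
    ∫ ε, cos (rs D a ε) * cos (rs D b ε) ∂coins
      = (∏ k ∈ range D, cos (a k)) * ∏ k ∈ range D, cos (b k) := by
  have h1 : ∀ ε, cos (rs D a ε) * cos (rs D b ε)
      = (cos (rs D (fun k => a k - b k) ε) + cos (rs D (fun k => a k + b k) ε)) / 2 := by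
    intro ε
    have e1 : rs D (fun k => a k - b k) ε = rs D a ε - rs D b ε := by
      simp only [rs, sub_mul, sum_sub_distrib]
    have e2 : rs D (fun k => a k + b k) ε = rs D a ε + rs D b ε := by
      simp only [rs, add_mul, sum_add_distrib]
    rw [e1, e2, cos_sub, cos_add]; ring
  simp only [h1]
  rw [integral_div, integral_add (integrable_cos_rs _ _) (integrable_cos_rs _ _),
    integral_cos_rs, integral_cos_rs, ← prod_mul_distrib]
  have e1 : ∀ k, cos (a k - b k) = cos (a k) * cos (b k) := fun k => by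
    rcases h k with h | h <;> simp [h]
  have e2 : ∀ k, cos (a k + b k) = cos (a k) * cos (b k) := fun k => by
    rcases h k with h | h <;> simp [h]
  simp only [e1, e2]; ring

/-- variance bound for averages of block characters -/
lemma var_bound (D N P : ℕ) (hN : 0 < N) (γ : ℕ → ℕ → ℝ) (y : ℝ)
    (hy : ∀ u < N, ∏ k ∈ range D, cos (γ u k) = y)
    (hsupp : ∀ u k, γ u k ≠ 0 → u ≤ k ∧ k < u + P) :
    ∫ ε, ((N : ℝ)⁻¹ * ∑ u ∈ range N, (cos (rs D (γ u) ε) - y)) ^ 2 ∂coins ≤ 2 * P / N := by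
  have hNr : (0 : ℝ) < N := by exact_mod_cast hN
  have hexp : ∀ ε, ((N : ℝ)⁻¹ * ∑ u ∈ range N, (cos (rs D (γ u) ε) - y)) ^ 2
      = (N : ℝ)⁻¹ ^ 2 * ∑ u ∈ range N, ∑ v ∈ range N,
        (cos (rs D (γ u) ε) * cos (rs D (γ v) ε) - y * cos (rs D (γ u) ε)
          - y * cos (rs D (γ v) ε) + y ^ 2) := by
    intro ε
    rw [mul_pow, sq (∑ u ∈ range N, _), sum_mul_sum]
    congr 1
    refine sum_congr rfl fun u _ => sum_congr rfl fun v _ => by ring
  have hI2 : ∀ u v, Integrable (fun ε => cos (rs D (γ u) ε) * cos (rs D (γ v) ε)) coins := by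
    intro u v
    refine integrable_of_bdd ((measurable_cos.comp (measurable_rs D _)).mul
      (measurable_cos.comp (measurable_rs D _))) 1 fun ε => ?_
    rw [abs_mul]
    exact mul_le_one₀ (abs_cos_le_one _) (abs_nonneg _) (abs_cos_le_one _)
  have hI : ∀ u v, Integrable (fun ε => cos (rs D (γ u) ε) * cos (rs D (γ v) ε)
      - y * cos (rs D (γ u) ε) - y * cos (rs D (γ v) ε) + y ^ 2) coins := fun u v =>
    (((hI2 u v).sub ((integrable_cos_rs _ _).const_mul y)).sub
      ((integrable_cos_rs _ _).const_mul y)).add (integrable_const _)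
  have hterm : ∀ u ∈ range N, ∀ v ∈ range N,
      ∫ ε, (cos (rs D (γ u) ε) * cos (rs D (γ v) ε) - y * cos (rs D (γ u) ε)
          - y * cos (rs D (γ v) ε) + y ^ 2) ∂coins
        ≤ if v ∈ Ico (u - P) (u + P) then 1 else 0 := by
    intro u hu v hv
    have j1 : Integrable (fun ε => cos (rs D (γ u) ε) * cos (rs D (γ v) ε)
      - y * cos (rs D (γ u) ε)) coins := (hI2 u v).sub ((integrable_cos_rs _ _).const_mul y)
    have j2 : Integrable (fun ε => cos (rs D (γ u) ε) * cos (rs D (γ v) ε)
      - y * cos (rs D (γ u) ε) - y * cos (rs D (γ v) ε)) coins :=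
      j1.sub ((integrable_cos_rs _ _).const_mul y)
    rw [integral_add j2 (integrable_const _),
      integral_sub j1 ((integrable_cos_rs _ _).const_mul y),
      integral_sub (hI2 u v) ((integrable_cos_rs _ _).const_mul y), integral_const_mul,
      integral_const_mul, integral_cos_rs, integral_cos_rs, hy u (mem_range.1 hu),
      hy v (mem_range.1 hv)]
    simp only [integral_const, probReal_univ, smul_eq_mul, one_mul]
    split_ifs with h
    · have : ∫ ε, cos (rs D (γ u) ε) * cos (rs D (γ v) ε) ∂coins ≤ ∫ _ε, (1 : ℝ) ∂coins := by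
        refine integral_mono (hI2 u v) (integrable_const _) fun ε => ?_
        refine (le_abs_self _).trans ?_
        rw [abs_mul]
        exact mul_le_one₀ (abs_cos_le_one _) (abs_nonneg _) (abs_cos_le_one _)
      simp only [integral_const, probReal_univ, smul_eq_mul, one_mul] at this
      nlinarith [sq_nonneg y]
    · rw [integral_cos_mul_cos, hy u (mem_range.1 hu), hy v (mem_range.1 hv)]
      · nlinarith
      · intro k
        by_contra hk
        push Not at hk
        have h1 := hsupp u k hk.1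
        have h2 := hsupp v k hk.2
        rw [mem_Ico] at h
        omega
  simp only [hexp]
  rw [integral_const_mul, integral_finsetSum _ fun u _ => integrable_finsetSum _ fun v _ => hI u v]
  have hrow : ∀ u ∈ range N, ∫ ε, ∑ v ∈ range N,
      (cos (rs D (γ u) ε) * cos (rs D (γ v) ε) - y * cos (rs D (γ u) ε)
          - y * cos (rs D (γ v) ε) + y ^ 2) ∂coins ≤ 2 * P := by
    intro u hu
    rw [integral_finsetSum _ fun v _ => hI u v]
    refine (sum_le_sum (hterm u hu)).trans ?_
    rw [← sum_filter, sum_const, nsmul_eq_mul, mul_one]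
    have : #(filter (fun v => v ∈ Ico (u - P) (u + P)) (range N)) ≤ 2 * P := by
      refine (card_le_card (t := Ico (u - P) (u + P)) fun v hv => (mem_filter.1 hv).2).trans ?_
      rw [Nat.card_Ico]; omega
    exact_mod_cast this
  have := sum_le_sum hrow
  rw [sum_const, card_range, nsmul_eq_mul] at this
  calc _ ≤ (N : ℝ)⁻¹ ^ 2 * (N * (2 * P)) := by gcongr
    _ = 2 * P / N := by field_simp

lemma nu_side {r : ℝ} (h0 : 0 ≤ r) (h1 : r < 1) (t c : ℕ → ℝ) (N P : ℕ) (hN : 0 < N)
    (p T : ℝ) (hp : 0 ≤ p) (hc : ∀ u i, t u * r ^ (u + i) = c i)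
    (hpast : ∀ u k, k < u → 1 - cos (t u * r ^ k) ≤ p)
    (htail : ∀ u, |t u| * (r ^ (u + P) * (1 - r)⁻¹) ≤ T) :
    ∫ ε, ((N : ℝ)⁻¹ * ∑ u ∈ range N, cos (t u * signedPowerSum r ε)
      - ∏ i ∈ range P, cos (c i)) ^ 2 ∂coins ≤ 4 * T ^ 2 + 8 * (N * p) + 4 * P / N := by
  have hNr : (0 : ℝ) < N := by exact_mod_cast hN
  set y := ∏ i ∈ range P, cos (c i) with hy
  set D := N + P
  set γ : ℕ → ℕ → ℝ := fun u k => if k ∈ Ico u (u + P) then t u * r ^ k else 0 with hγ
  have hγy : ∀ u < N, ∏ k ∈ range D, cos (γ u k) = y := by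
    intro u hu
    have : ∀ k, cos (γ u k) = if k ∈ Ico u (u + P) then cos (t u * r ^ k) else 1 := by
      intro k; simp only [hγ]; split_ifs <;> simp
    simp only [this]
    rw [← prod_filter, filter_mem_eq_inter, inter_eq_right.2, prod_Ico_eq_prod_range]
    · simp only [Nat.add_sub_cancel_left, hc, hy]
    · intro k hk; rw [mem_Ico] at hk; rw [mem_range]; omega
  have hV := var_bound D N P hN γ y hγy (by
    intro u k h
    simp only [hγ] at h
    split_ifs at h with h'
    · exact mem_Ico.1 h'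
    · exact absurd rfl h)
  have hsplit : ∀ u < N, ∀ ε, t u * ∑ k ∈ range (u + P), r ^ k * sg (ε k)
      = rs D (γ u) ε + rs u (fun k => t u * r ^ k) ε := by
    intro u hu ε
    have e1 : rs D (γ u) ε = ∑ k ∈ Ico u (u + P), t u * r ^ k * sg (ε k) := by
      simp only [rs, hγ, ite_mul, zero_mul]
      rw [← sum_filter, filter_mem_eq_inter, inter_eq_right.2]
      intro k hk; rw [mem_Ico] at hk; rw [mem_range]; omega
    rw [e1, rs, add_comm (∑ k ∈ Ico u (u + P), _),
      sum_range_add_sum_Ico _ (Nat.le_add_right u P), mul_sum]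
    exact sum_congr rfl fun k _ => by ring
  have hpt : ∀ u < N, ∀ ε, (cos (t u * signedPowerSum r ε) - cos (rs D (γ u) ε)) ^ 2
      ≤ 2 * T ^ 2 + 4 * (1 - cos (rs u (fun k => t u * r ^ k) ε)) := by
    intro u hu ε
    have a1 := sq_cos_add_sub_le (rs D (γ u) ε) (rs u (fun k => t u * r ^ k) ε)
    have a2 := abs_cos_sub_cos_le (t u * signedPowerSum r ε)
      (rs D (γ u) ε + rs u (fun k => t u * r ^ k) ε)
    have a3 : |t u * signedPowerSum r ε - (rs D (γ u) ε + rs u (fun k => t u * r ^ k) ε)| ≤ T := by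
      rw [← hsplit u hu, ← mul_sub, abs_mul]
      exact (mul_le_mul_of_nonneg_left (tail_le h0 h1 ε _) (abs_nonneg _)).trans (htail u)
    have a4 := pow_le_pow_left₀ (abs_nonneg _) (a2.trans a3) 2
    rw [sq_abs] at a4
    nlinarith [sq_nonneg ((cos (t u * signedPowerSum r ε)
      - cos (rs D (γ u) ε + rs u (fun k => t u * r ^ k) ε))
      - (cos (rs D (γ u) ε + rs u (fun k => t u * r ^ k) ε) - cos (rs D (γ u) ε)))]
  have hpoint : ∀ ε, ((N : ℝ)⁻¹ * ∑ u ∈ range N, cos (t u * signedPowerSum r ε) - y) ^ 2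
      ≤ 2 * ((N : ℝ)⁻¹ * ∑ u ∈ range N,
          (2 * T ^ 2 + 4 * (1 - cos (rs u (fun k => t u * r ^ k) ε))))
        + 2 * ((N : ℝ)⁻¹ * ∑ u ∈ range N, (cos (rs D (γ u) ε) - y)) ^ 2 := by
    intro ε
    have e : (N : ℝ)⁻¹ * ∑ u ∈ range N, cos (t u * signedPowerSum r ε) - y
        = (N : ℝ)⁻¹ * ∑ u ∈ range N, (cos (t u * signedPowerSum r ε) - cos (rs D (γ u) ε))
          + (N : ℝ)⁻¹ * ∑ u ∈ range N, (cos (rs D (γ u) ε) - y) := by
      simp only [sum_sub_distrib, sum_const, card_range, nsmul_eq_mul]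
      have hinv : (N : ℝ)⁻¹ * N = 1 := inv_mul_cancel₀ hNr.ne'
      linear_combination y * hinv
    have b1 := sq_sum_le_card_mul_sum_sq (s := range N)
      (f := fun u => cos (t u * signedPowerSum r ε) - cos (rs D (γ u) ε))
    rw [card_range] at b1
    have b2 := sum_le_sum (s := range N) fun u hu => hpt u (mem_range.1 hu) ε
    have b3 : ((N : ℝ)⁻¹ * ∑ u ∈ range N,
        (cos (t u * signedPowerSum r ε) - cos (rs D (γ u) ε))) ^ 2
        ≤ (N : ℝ)⁻¹ * ∑ u ∈ range N,
          (2 * T ^ 2 + 4 * (1 - cos (rs u (fun k => t u * r ^ k) ε))) := by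
      rw [mul_pow]
      calc _ ≤ (N : ℝ)⁻¹ ^ 2 * (N * ∑ u ∈ range N,
          (2 * T ^ 2 + 4 * (1 - cos (rs u (fun k => t u * r ^ k) ε)))) := by
            gcongr
            exact b1.trans (by gcongr)
        _ = _ := by field_simp
    rw [e]
    nlinarith [sq_nonneg ((N : ℝ)⁻¹ * ∑ u ∈ range N,
      (cos (t u * signedPowerSum r ε) - cos (rs D (γ u) ε))
      - (N : ℝ)⁻¹ * ∑ u ∈ range N, (cos (rs D (γ u) ε) - y))]
  have hI1 : ∀ u, Integrable (fun ε => 2 * T ^ 2
      + 4 * (1 - cos (rs u (fun k => t u * r ^ k) ε))) coins := fun u =>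
    (integrable_const _).add (((integrable_const _).sub (integrable_cos_rs _ _)).const_mul _)
  have hI2 : Integrable (fun ε =>
      ((N : ℝ)⁻¹ * ∑ u ∈ range N, (cos (rs D (γ u) ε) - y)) ^ 2) coins := by
    refine integrable_of_bdd (((Finset.measurable_sum _ fun u _ =>
      (measurable_cos.comp (measurable_rs D _)).sub_const y).const_mul _).pow_const 2)
      (((N : ℝ)⁻¹ * (N * (1 + |y|))) ^ 2) fun ε => ?_
    rw [abs_pow, abs_mul, abs_of_pos (inv_pos.2 hNr)]
    gcongr
    refine (abs_sum_le_sum_abs _ _).trans ?_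
    calc _ ≤ ∑ u ∈ range N, (1 + |y|) := sum_le_sum fun u _ =>
          (abs_sub _ _).trans (by gcongr; exact abs_cos_le_one _)
      _ = _ := by rw [sum_const, card_range, nsmul_eq_mul]
  have hI3 : Integrable (fun ε => (N : ℝ)⁻¹ * ∑ u ∈ range N,
      (2 * T ^ 2 + 4 * (1 - cos (rs u (fun k => t u * r ^ k) ε)))) coins :=
    (integrable_finsetSum _ fun u _ => hI1 u).const_mul _
  refine (integral_mono_of_nonneg (ae_of_all _ fun ε => sq_nonneg _)
    ((hI3.const_mul 2).add (hI2.const_mul 2)) (ae_of_all _ hpoint)).trans ?_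
  simp only [Pi.add_apply]
  rw [integral_add (hI3.const_mul 2) (hI2.const_mul 2), integral_const_mul, integral_const_mul,
    integral_const_mul, integral_finsetSum _ fun u _ => hI1 u]
  have hu : ∀ u ∈ range N, ∫ ε, (2 * T ^ 2
      + 4 * (1 - cos (rs u (fun k => t u * r ^ k) ε))) ∂coins ≤ 2 * T ^ 2 + 4 * (N * p) := by
    intro u hu
    have j1 : Integrable (fun ε => 4 * (1 - cos (rs u (fun k => t u * r ^ k) ε))) coins :=
      ((integrable_const _).sub (integrable_cos_rs _ _)).const_mul _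
    rw [integral_add (integrable_const _) j1, integral_const, integral_const_mul,
      integral_sub (integrable_const _) (integrable_cos_rs _ _), integral_cos_rs]
    simp only [integral_const, probReal_univ, smul_eq_mul, one_mul]
    have c1 := one_sub_prod_le u (fun k => cos (t u * r ^ k)) fun k => abs_cos_le_one _
    have c2 := sum_le_sum (s := range u) fun k hk => hpast u k (mem_range.1 hk)
    rw [sum_const, card_range, nsmul_eq_mul] at c2
    have c3 : (u : ℝ) * p ≤ N * p := by
      gcongr; exact (mem_range.1 hu).le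
    linarith
  have hs := sum_le_sum hu
  rw [sum_const, card_range, nsmul_eq_mul] at hs
  have hs' : (N : ℝ)⁻¹ * ∑ u ∈ range N, ∫ ε, (2 * T ^ 2
      + 4 * (1 - cos (rs u (fun k => t u * r ^ k) ε))) ∂coins ≤ 2 * T ^ 2 + 4 * (N * p) := by
    calc _ ≤ (N : ℝ)⁻¹ * (N * (2 * T ^ 2 + 4 * (N * p))) := by gcongr
      _ = _ := by field_simp
  have : 4 * (P : ℝ) / N = 2 * (2 * P / N) := by ring
  linarith

lemma abs_integral_cos_le {s R d : ℝ} (hd : 0 < d) (hs : d ≤ |s|) :
    |∫ x in -R..R, cos (s * x)| ≤ 2 / d := by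
  have hs0 : s ≠ 0 := by rintro rfl; simp at hs; linarith
  rw [intervalIntegral.integral_comp_mul_left (fun x => cos x) hs0, integral_cos, smul_eq_mul,
    abs_mul, abs_inv]
  have h1 : |sin (s * R) - sin (s * -R)| ≤ 2 :=
    (abs_sub _ _).trans (by linarith [abs_sin_le_one (s * R), abs_sin_le_one (s * -R)])
  calc _ ≤ d⁻¹ * 2 := by gcongr
    _ = 2 / d := by ring

lemma leb_side (t : ℕ → ℝ) (N : ℕ) (hN : 0 < N) {R d : ℝ} (hR : 0 ≤ R) (hd : 0 < d)
    (hsep : ∀ u v, u ≠ v → d ≤ |t u - t v|) (hsum : ∀ u v, u ≠ v → d ≤ |t u + t v|) :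
    ∫ x in -R..R, ((N : ℝ)⁻¹ * ∑ u ∈ range N, cos (t u * x)) ^ 2 ≤ 2 * R / N + 2 / d := by
  have hNr : (0 : ℝ) < N := by exact_mod_cast hN
  have hexp : ∀ x, ((N : ℝ)⁻¹ * ∑ u ∈ range N, cos (t u * x)) ^ 2
      = (N : ℝ)⁻¹ ^ 2 * ∑ u ∈ range N, ∑ v ∈ range N, cos (t u * x) * cos (t v * x) := by
    intro x
    rw [mul_pow, sq (∑ u ∈ range N, _), sum_mul_sum]
  have hI : ∀ u v, IntervalIntegrable (fun x => cos (t u * x) * cos (t v * x)) volume (-R) R :=
    fun u v => (by fun_prop : Continuous _).intervalIntegrable _ _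
  have hterm : ∀ u v, ∫ x in -R..R, cos (t u * x) * cos (t v * x)
      ≤ (if v = u then 2 * R else 0) + 2 / d := by
    intro u v
    split_ifs with h
    · have : ∫ x in -R..R, cos (t u * x) * cos (t v * x) ≤ ∫ x in -R..R, (1 : ℝ) := by
        refine intervalIntegral.integral_mono_on (by linarith) (hI u v)
          intervalIntegrable_const fun x _ => ?_
        refine (le_abs_self _).trans ?_
        rw [abs_mul]
        exact mul_le_one₀ (abs_cos_le_one _) (abs_nonneg _) (abs_cos_le_one _)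
      simp only [intervalIntegral.integral_const, smul_eq_mul, mul_one] at this
      have : 0 ≤ 2 / d := by positivity
      linarith
    · have e : ∀ x, cos (t u * x) * cos (t v * x)
          = (cos ((t u - t v) * x) + cos ((t u + t v) * x)) / 2 := by
        intro x; rw [sub_mul, add_mul, cos_sub, cos_add]; ring
      simp only [e]
      rw [intervalIntegral.integral_div, intervalIntegral.integral_add
        ((by fun_prop : Continuous _).intervalIntegrable _ _)
        ((by fun_prop : Continuous _).intervalIntegrable _ _)]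
      have a1 := (abs_le.1 (abs_integral_cos_le (R := R) hd (hsep u v (Ne.symm h)))).2
      have a2 := (abs_le.1 (abs_integral_cos_le (R := R) hd (hsum u v (Ne.symm h)))).2
      linarith
  simp only [hexp]
  rw [intervalIntegral.integral_const_mul, intervalIntegral.integral_finsetSum
    fun u _ => (by fun_prop : Continuous _).intervalIntegrable _ _]
  have hrow : ∀ u ∈ range N, ∫ x in -R..R, ∑ v ∈ range N, cos (t u * x) * cos (t v * x)
      ≤ 2 * R + N * (2 / d) := by
    intro u hu
    rw [intervalIntegral.integral_finsetSum fun v _ => hI u v]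
    refine (sum_le_sum fun v _ => hterm u v).trans ?_
    rw [sum_add_distrib, sum_ite_eq', sum_const, card_range, nsmul_eq_mul, if_pos hu]
  have := sum_le_sum hrow
  rw [sum_const, card_range, nsmul_eq_mul] at this
  calc _ ≤ (N : ℝ)⁻¹ ^ 2 * (N * (2 * R + N * (2 / d))) := by gcongr
    _ = _ := by field_simp

end Crest.Agent.R104
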