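import Crest.Agent.R104.Prob

set_option autoImplicit false
open Finset Real Filter

namespace Crest.Agent.R104

/-- cost of one cosine factor -/
noncomputable def cst (x : ℝ) : ℝ := -Real.log |cos (2 * π * x)|

lemma abs_cos_close {x y η σ : ℝ} {m : ℤ} (hσ : σ = 1 ∨ σ = -1) (h : |y - σ * x - m| ≤ η) :
    |cos (2 * π * x)| - 2 * π * η ≤ |cos (2 * π * y)| := by
  have h1 : cos (2 * π * y) = cos (2 * π * (y - m)) := by
    rw [← cos_sub_int_mul_two_pi (2 * π * y) m]; congr 1; ring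
  have h2 : cos (2 * π * x) = cos (2 * π * (σ * x)) := by
    rcases hσ with rfl | rfl
    · simp
    · rw [← cos_neg]; congr 1; ring
  rw [h1, h2]
  have h3 := abs_cos_sub_cos_le (2 * π * (σ * x)) (2 * π * (y - m))
  have h4 : |2 * π * (σ * x) - 2 * π * (y - m)| ≤ 2 * π * η := by
    rw [← mul_sub, abs_mul, abs_of_pos (by positivity : 0 < 2 * π), abs_sub_comm]
    have : y - m - σ * x = y - σ * x - m := by ring
    rw [this]; gcongr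
  have h5 := abs_sub_abs_le_abs_sub (cos (2 * π * (σ * x))) (cos (2 * π * (y - m)))
  linarith

lemma neg_log_le {u v ρ δ : ℝ} (hρ : 0 < ρ) (hu : ρ ≤ u) (hv : 0 < v) (hδ : 0 ≤ δ)
    (h : v - δ ≤ u) : -Real.log u ≤ -Real.log v + δ / ρ := by
  have hu0 : 0 < u := by linarith
  have h1 := Real.log_le_sub_one_of_pos (div_pos hv hu0)
  rw [Real.log_div hv.ne' hu0.ne'] at h1
  have h2 : v / u - 1 ≤ δ / ρ := by
    calc v / u - 1 = (v - u) / u := by field_simp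
      _ ≤ δ / u := by gcongr; linarith
      _ ≤ δ / ρ := by gcongr
  linarith

lemma cst_close {x y η σ ρ : ℝ} {m : ℤ} (hρ : 0 < ρ) (hx : ρ ≤ |cos (2 * π * x)|)
    (hy : ρ ≤ |cos (2 * π * y)|) (hσ : σ = 1 ∨ σ = -1) (h : |y - σ * x - m| ≤ η) :
    cst y ≤ cst x + 2 * π * η / ρ :=
  neg_log_le hρ hy (by linarith) (by have := (abs_nonneg _).trans h; positivity)
    (abs_cos_close hσ h)

lemma cst_quad {x η ρ : ℝ} {m : ℤ} (hρ : 0 < ρ) (hx : ρ ≤ |cos (2 * π * x)|)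
    (h : |x - m| ≤ η) : cst x ≤ 2 * π ^ 2 * η ^ 2 / ρ := by
  have := neg_log_le (v := 1) (δ := 2 * π ^ 2 * η ^ 2) hρ hx one_pos (by positivity)
    (by linarith [one_sub_cos_le_of_near h, le_abs_self (cos (2 * π * x))])
  simpa [cst] using this

lemma geo_ge {β : ℝ} (hβ : 1 < β) (s : Finset ℤ) (a : ℤ) (h : ∀ j ∈ s, a ≤ j) :
    ∑ j ∈ s, β ^ (-j) ≤ β ^ (-a) * (1 - β⁻¹)⁻¹ := by
  have hβ0 : 0 < β := by linarith
  have h0 : 0 ≤ β⁻¹ := by positivity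
  have h1 : β⁻¹ < 1 := inv_lt_one_of_one_lt₀ hβ
  have e : ∑ j ∈ s, β ^ (-j) = β ^ (-a) * ∑ k ∈ s.image (fun j => (j - a).toNat), β⁻¹ ^ k := by
    rw [sum_image, mul_sum]
    · refine sum_congr rfl fun j hj => ?_
      rw [inv_pow, ← zpow_natCast, ← zpow_neg, ← zpow_add₀ hβ0.ne', Int.toNat_of_nonneg
        (by linarith [h j hj])]
      congr 1; ring
    · intro i hi j hj hij
      have := h i hi
      have := h j hj
      simp only at hij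
      omega
  rw [e, ← tsum_geometric_of_lt_one h0 h1]
  gcongr
  exact (summable_geometric_of_lt_one h0 h1).sum_le_tsum _ fun _ _ => by positivity

lemma geo_le {β : ℝ} (hβ : 1 < β) (s : Finset ℤ) (a : ℤ) (h : ∀ j ∈ s, j ≤ a) :
    ∑ j ∈ s, β ^ j ≤ β ^ a * (1 - β⁻¹)⁻¹ := by
  have := geo_ge hβ (s.image Neg.neg) (-a) (by
    intro j hj
    obtain ⟨i, hi, rfl⟩ := mem_image.1 hj
    linarith [h i hi])
  rw [sum_image (fun i _ j _ hij => neg_injective hij)] at this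
  simpa using this

/-- The state of the construction. -/
def St (β : ℝ) (ω : ℂ) (A : ℝ) (L : ℕ) (e : ℝ) : Prop :=
  1 ≤ A ∧ A ≤ β ^ L ∧ ∃ (σ : ℝ) (C : ℂ), (σ = 1 ∨ σ = -1) ∧ ‖C‖ ≤ e ∧
    ∀ j : ℤ, ∃ m : ℤ, A * β ^ j + σ * (A * β ^ (-(L : ℤ) - j)) + 2 * (C * ω ^ j).re = m

/-- No cosine factor is small. -/
def Rho (β A ρ : ℝ) : Prop := ∀ j : ℤ, ρ ≤ |cos (2 * π * (A * β ^ j))|

/-- The total cost of the factors with index at most `m` is at most `G`. -/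
def Gb (β A G : ℝ) (m : ℤ) : Prop :=
  ∀ s : Finset ℤ, (∀ j ∈ s, j ≤ m) → ∑ j ∈ s, cst (A * β ^ j) ≤ G

variable {β : ℝ} {ω : ℂ} {A e : ℝ} {L : ℕ}

lemma St.mono (h : St β ω A L e) {e' : ℝ} (he : e ≤ e') : St β ω A L e' := by
  obtain ⟨h1, h2, σ, C, h3, h4, h5⟩ := h
  exact ⟨h1, h2, σ, C, h3, h4.trans he, h5⟩

lemma abs_re_le (hω : ‖ω‖ = 1) (C : ℂ) (j : ℤ) : |(C * ω ^ j).re| ≤ ‖C‖ := by
  refine (Complex.abs_re_le_norm _).trans ?_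
  rw [norm_mul, norm_zpow, hω, one_zpow, mul_one]

lemma St.le_zpow (hβ : 1 < β) (h : St β ω A L e) (j : ℤ) : A * β ^ j ≤ β ^ ((L : ℤ) + j) := by
  have hβ0 : 0 < β := by linarith
  rw [zpow_add₀ hβ0.ne', zpow_natCast]
  have := h.2.1
  gcongr

lemma St.near (hβ : 1 < β) (hω : ‖ω‖ = 1) (h : St β ω A L e) (j : ℤ) :
    ∃ m : ℤ, |A * β ^ j - m| ≤ β ^ (-j) + 2 * e := by
  have hβ0 : 0 < β := by linarith
  have hle := h.le_zpow hβ (-(L : ℤ) - j)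
  obtain ⟨h1, h2, σ, C, h3, h4, h5⟩ := h
  obtain ⟨m, hm⟩ := h5 j
  refine ⟨m, ?_⟩
  have e1 : (L : ℤ) + (-(L : ℤ) - j) = -j := by ring
  rw [e1] at hle
  have hp : 0 ≤ A * β ^ (-(L : ℤ) - j) := by positivity
  have := abs_le.1 ((abs_re_le hω C j).trans h4)
  rw [abs_le]
  rcases h3 with rfl | rfl <;> constructor <;> linarith

lemma St.step (hβ : 1 < β) (h : St β ω A L e) (hω : ‖ω‖ = 1) {n : ℕ} (hn : 2 ≤ β ^ n) {θ : ℝ}
    (hθ : ‖ω ^ n - 1‖ ≤ θ) : St β ω (A * (β ^ n - 1)) (L + n) (e * θ) ∧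
      ∃ σ : ℝ, (σ = 1 ∨ σ = -1) ∧ ∀ j : ℤ, ∃ m : ℤ,
        |A * (β ^ n - 1) * β ^ j - σ * (A * β ^ (-(L : ℤ) - j)) - m|
          ≤ 2 * (e * θ) + β ^ (-j - n) := by
  have hβ0 : 0 < β := by linarith
  have hω0 : ω ≠ 0 := by rintro rfl; simp at hω
  have hle := h.le_zpow hβ
  obtain ⟨h1, h2, σ, C, h3, h4, h5⟩ := h
  have hC : ‖C * (ω ^ n - 1)‖ ≤ e * θ := by
    rw [norm_mul]; exact mul_le_mul h4 hθ (norm_nonneg _) ((norm_nonneg _).trans h4)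
  have hrel : ∀ j : ℤ, ∃ m : ℤ, A * (β ^ n - 1) * β ^ j
      + σ * (A * β ^ (-(L : ℤ) - (j + n))) - σ * (A * β ^ (-(L : ℤ) - j))
      + 2 * (C * (ω ^ n - 1) * ω ^ j).re = m := by
    intro j
    obtain ⟨m1, hm1⟩ := h5 j
    obtain ⟨m2, hm2⟩ := h5 (j + n)
    refine ⟨m2 - m1, ?_⟩
    have e1 : C * (ω ^ n - 1) * ω ^ j = C * ω ^ (j + n) - C * ω ^ j := by
      rw [zpow_add₀ hω0, zpow_natCast]; ring
    have e2 : β ^ (j + n) = β ^ j * β ^ n := by rw [zpow_add₀ hβ0.ne', zpow_natCast]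
    rw [e1, Complex.sub_re]
    rw [e2] at hm2
    push_cast
    linear_combination hm2 - hm1
  refine ⟨⟨by nlinarith, ?_, -σ, C * (ω ^ n - 1), ?_, hC, ?_⟩, σ, h3, ?_⟩
  · rw [pow_add]
    exact mul_le_mul h2 (by linarith) (by linarith) (by positivity)
  · rcases h3 with rfl | rfl <;> simp
  · intro j
    obtain ⟨m, hm⟩ := hrel j
    refine ⟨m, ?_⟩
    have e1 : β ^ (-(L : ℤ) - j) = β ^ (-((L + n : ℕ) : ℤ) - j) * β ^ n := by
      rw [← zpow_natCast, ← zpow_add₀ hβ0.ne']; congr 1; push_cast; ring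
    have e2 : -(L : ℤ) - (j + n) = -((L + n : ℕ) : ℤ) - j := by push_cast; ring
    rw [e1, e2] at hm
    linear_combination hm
  · intro j
    obtain ⟨m, hm⟩ := hrel j
    refine ⟨m, ?_⟩
    have h6 := hle (-(L : ℤ) - (j + n))
    have e1 : (L : ℤ) + (-(L : ℤ) - (j + n)) = -j - n := by ring
    rw [e1] at h6
    have hp : 0 ≤ A * β ^ (-(L : ℤ) - (j + n)) := by positivity
    have := abs_le.1 ((abs_re_le hω (C * (ω ^ n - 1)) j).trans hC)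
    rw [abs_le]
    rcases h3 with rfl | rfl <;> constructor <;> linarith

lemma St.far (hβ : 1 < β) (h : St β ω A L e) (n : ℕ) (j : ℤ) :
    |A * (β ^ n - 1) * β ^ j - 1 * (A * β ^ (j + n)) - ((0 : ℤ) : ℝ)| ≤ β ^ ((L : ℤ) + j) := by
  have hβ0 : 0 < β := by linarith
  have e : A * (β ^ n - 1) * β ^ j - 1 * (A * β ^ (j + n)) - ((0 : ℤ) : ℝ) = -(A * β ^ j) := by
    rw [zpow_add₀ hβ0.ne', zpow_natCast]; push_cast; ring
  have := h.1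
  rw [e, abs_neg, abs_of_nonneg (by positivity)]
  exact h.le_zpow hβ j

lemma St.step_rho (hβ : 1 < β) (h : St β ω A L e) (hω : ‖ω‖ = 1) {n M : ℕ} (hn : 2 ≤ β ^ n)
    {θ ρ : ℝ} (hθ : ‖ω ^ n - 1‖ ≤ θ) (hM : L + 2 * M ≤ n) (hρ : Rho β A ρ) :
    Rho β (A * (β ^ n - 1)) (ρ - 2 * π * (2 * (e * θ) + β ^ (-(M : ℤ)))) := by
  obtain ⟨hst, σ, hσ, hcl⟩ := h.step hβ hω hn hθ
  have he : 0 ≤ e * θ := by
    obtain ⟨_, _, _, C, _, h4, _⟩ := hst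
    exact (norm_nonneg _).trans h4
  intro j
  by_cases hj : -((L : ℤ) + M) ≤ j
  · obtain ⟨m, hm⟩ := hcl j
    have h1 := abs_cos_close hσ hm
    have h2 : β ^ (-j - n) ≤ β ^ (-(M : ℤ)) := zpow_le_zpow_right₀ hβ.le (by omega)
    have h3 := hρ (-(L : ℤ) - j)
    nlinarith [pi_pos]
  · have h1 := abs_cos_close (Or.inl rfl) (h.far hβ n j)
    have h2 : β ^ ((L : ℤ) + j) ≤ β ^ (-(M : ℤ)) := zpow_le_zpow_right₀ hβ.le (by omega)
    have h3 := hρ (j + n)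
    nlinarith [pi_pos]

lemma card_le_of_bounds (s : Finset ℤ) (a : ℤ) (n : ℕ) (h : ∀ j ∈ s, a < j ∧ j ≤ a + n) :
    (#s : ℝ) ≤ n := by
  have : #s ≤ n := by
    refine (card_le_card (t := Ioc a (a + n)) fun j hj => mem_Ioc.2 (h j hj)).trans ?_
    simp
  exact_mod_cast this

lemma St.extend (hβ : 1 < β) (h : St β ω A L e) (hω : ‖ω‖ = 1) {ρ G : ℝ} (hρ0 : 0 < ρ)
    (hρ : Rho β A ρ) (hG : Gb β A G 0) (n : ℕ) :
    Gb β A (G + 2 * π ^ 2 / ρ * (2 * (1 - β⁻¹)⁻¹ + 8 * (n * e ^ 2))) n := by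
  have hβ0 : 0 < β := by linarith
  intro s hs
  rw [← sum_filter_add_sum_filter_not s (fun j => j ≤ 0)]
  have h1 := hG (s.filter fun j => j ≤ 0) fun j hj => (mem_filter.1 hj).2
  set s' := s.filter fun j => ¬ j ≤ 0
  have hs' : ∀ j ∈ s', 0 < j ∧ j ≤ 0 + n := fun j hj =>
    ⟨not_le.1 (mem_filter.1 hj).2, by simpa using hs j (mem_filter.1 hj).1⟩
  have h2 : ∀ j ∈ s', cst (A * β ^ j) ≤ 2 * π ^ 2 / ρ * (2 * β ^ (-j) + 8 * e ^ 2) := by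
    intro j hj
    obtain ⟨m, hm⟩ := h.near hβ hω j
    refine (cst_quad hρ0 (hρ j) hm).trans ?_
    have a1 : β ^ (-j) ≤ 1 := zpow_le_one_of_nonpos₀ hβ.le (by linarith [(hs' j hj).1])
    have a2 : 0 < β ^ (-j) := by positivity
    have a3 : (β ^ (-j) + 2 * e) ^ 2 ≤ 2 * β ^ (-j) + 8 * e ^ 2 := by
      nlinarith [sq_nonneg (β ^ (-j) - 2 * e)]
    rw [div_mul_eq_mul_div]
    gcongr
  have h3 := sum_le_sum h2
  rw [← mul_sum, sum_add_distrib, ← mul_sum, sum_const, nsmul_eq_mul] at h3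
  have h4 := geo_ge hβ s' 0 fun j hj => (hs' j hj).1.le
  have h5 := card_le_of_bounds s' 0 n hs'
  simp only [neg_zero, zpow_zero, one_mul] at h4
  have h6 : (#s' : ℝ) * (8 * e ^ 2) ≤ n * (8 * e ^ 2) := by gcongr
  have h7 : 2 * π ^ 2 / ρ * (2 * ∑ j ∈ s', β ^ (-j) + #s' * (8 * e ^ 2))
      ≤ 2 * π ^ 2 / ρ * (2 * (1 - β⁻¹)⁻¹ + 8 * (n * e ^ 2)) := by
    gcongr ?_ * ?_
    linarith
  linarith

lemma St.step_G (hβ : 1 < β) (h : St β ω A L e) (hω : ‖ω‖ = 1) {n M : ℕ} (hn : 2 ≤ β ^ n)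
    {θ ρ G : ℝ} (hθ : ‖ω ^ n - 1‖ ≤ θ) (hM : L + 2 * M ≤ n) (hM1 : 1 ≤ M) (hρ0 : 0 < ρ)
    (hρ : Rho β A ρ) (hρ' : Rho β (A * (β ^ n - 1)) ρ) (hG : Gb β A G n) :
    Gb β (A * (β ^ n - 1)) (2 * G + 2 * π / ρ * (2 * (1 - β⁻¹)⁻¹ + 2 * (n * (e * θ)))) 0 := by
  have hβ0 : 0 < β := by linarith
  obtain ⟨hst, σ, hσ, hcl⟩ := h.step hβ hω hn hθ
  have he : 0 ≤ e * θ := by
    obtain ⟨_, _, _, C, _, h4, _⟩ := hst
    exact (norm_nonneg _).trans h4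
  have hc : 0 ≤ (1 - β⁻¹)⁻¹ := inv_nonneg.2 (by linarith [inv_lt_one_of_one_lt₀ hβ])
  intro s hs
  rw [← sum_filter_add_sum_filter_not s (fun j => -((L : ℤ) + M) ≤ j)]
  set s1 := s.filter fun j => -((L : ℤ) + M) ≤ j
  set s2 := s.filter fun j => ¬ -((L : ℤ) + M) ≤ j
  have hs1 : ∀ j ∈ s1, -((L : ℤ) + M) ≤ j ∧ j ≤ 0 := fun j hj =>
    ⟨(mem_filter.1 hj).2, hs j (mem_filter.1 hj).1⟩
  have hs2 : ∀ j ∈ s2, j < -((L : ℤ) + M) := fun j hj => not_le.1 (mem_filter.1 hj).2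
  have a1 : ∀ j ∈ s1, cst (A * (β ^ n - 1) * β ^ j) ≤ cst (A * β ^ (-(L : ℤ) - j))
      + 2 * π / ρ * (2 * (e * θ) + β ^ (-(n : ℤ)) * β ^ (-j)) := by
    intro j _
    obtain ⟨m, hm⟩ := hcl j
    have := cst_close hρ0 (hρ _) (hρ' j) hσ hm
    rw [← zpow_add₀ hβ0.ne', div_mul_eq_mul_div, show -(n : ℤ) + -j = -j - n by ring]
    exact this
  have a2 : ∀ j ∈ s2, cst (A * (β ^ n - 1) * β ^ j) ≤ cst (A * β ^ (j + n))
      + 2 * π / ρ * (β ^ (L : ℤ) * β ^ j) := by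
    intro j _
    have := cst_close hρ0 (hρ _) (hρ' j) (Or.inl rfl) (h.far hβ n j)
    rw [← zpow_add₀ hβ0.ne', div_mul_eq_mul_div]
    exact this
  have b1 := sum_le_sum a1
  have b2 := sum_le_sum a2
  rw [sum_add_distrib, ← mul_sum, sum_add_distrib, sum_const, nsmul_eq_mul, ← mul_sum] at b1
  rw [sum_add_distrib, ← mul_sum, ← mul_sum] at b2
  have c1 := hG (s1.image fun j => -(L : ℤ) - j) (by
    intro j hj
    obtain ⟨i, hi, rfl⟩ := mem_image.1 hj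
    have := hs1 i hi
    omega)
  rw [sum_image (fun i _ j _ hij => by simpa using hij)] at c1
  have c2 := hG (s2.image fun j => j + n) (by
    intro j hj
    obtain ⟨i, hi, rfl⟩ := mem_image.1 hj
    have := hs2 i hi
    omega)
  rw [sum_image (fun i _ j _ hij => by simpa using hij)] at c2
  have d1 : β ^ (-(n : ℤ)) * ∑ j ∈ s1, β ^ (-j) ≤ (1 - β⁻¹)⁻¹ := by
    have := geo_ge hβ s1 (-(n : ℤ)) fun j hj => by have := hs1 j hj; omega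
    calc _ ≤ β ^ (-(n : ℤ)) * (β ^ (- -(n : ℤ)) * (1 - β⁻¹)⁻¹) := by gcongr
      _ = _ := by rw [← mul_assoc, ← zpow_add₀ hβ0.ne']; simp
  have d2 : β ^ (L : ℤ) * ∑ j ∈ s2, β ^ j ≤ (1 - β⁻¹)⁻¹ := by
    have := geo_le hβ s2 (-(L : ℤ)) fun j hj => by have := hs2 j hj; omega
    calc _ ≤ β ^ (L : ℤ) * (β ^ (-(L : ℤ)) * (1 - β⁻¹)⁻¹) := by gcongr
      _ = _ := by rw [← mul_assoc, ← zpow_add₀ hβ0.ne']; simp
  have d3 := card_le_of_bounds s1 (-(n : ℤ)) n fun j hj => by have := hs1 j hj; omega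
  have d4 : (#s1 : ℝ) * (e * θ) ≤ n * (e * θ) := by gcongr
  have hk : 0 ≤ 2 * π / ρ := by positivity
  have f1 := mul_le_mul_of_nonneg_left (add_le_add (mul_le_mul_of_nonneg_left d4
    (by norm_num : (0 : ℝ) ≤ 2)) d1) hk
  have f2 := mul_le_mul_of_nonneg_left d2 hk
  linarith

end Crest.Agent.R104
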